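import Mathlib

namespace Vale.Agent.P063
open Finset

variable {ι : Type} [Fintype ι] [DecidableEq ι]

def wt (p : ℝ) (x : ι → Bool) : ℝ := ∏ e, (if x e then p else 1 - p)

def Ex (p : ℝ) (F : (ι → Bool) → ℝ) : ℝ := ∑ x, wt p x * F x

def mix (T : Finset ι) (x ω : ι → Bool) : ι → Bool := fun e => if e ∈ T then ω e else x e

def Av (p : ℝ) (T : Finset ι) (F : (ι → Bool) → ℝ) (x : ι → Bool) : ℝ :=
  Ex p fun ω => F (mix T x ω)

def Inv (T : Finset ι) (G : (ι → Bool) → ℝ) : Prop := ∀ x ω, G (mix T x ω) = G x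

variable {p : ℝ}

lemma Ex_prod (g : ι → Bool → ℝ) :
    Ex p (fun x => ∏ e, g e (x e)) = ∏ e, (p * g e true + (1 - p) * g e false) := by
  have := Finset.prod_univ_sum (fun _ : ι => (univ : Finset Bool))
    (fun e b => (if b then p else 1 - p) * g e b)
  simp only [Fintype.piFinset_univ, Fintype.sum_bool, if_true, Bool.false_eq_true, if_false] at this
  rw [this, Ex]
  exact sum_congr rfl fun x _ => by rw [wt, prod_mul_distrib]

lemma Ex_one : Ex p (fun _ : ι → Bool => 1) = 1 := by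
  simpa using Ex_prod (p := p) (fun (_ : ι) _ => (1 : ℝ))

lemma Ex_mul (c : ℝ) (F : (ι → Bool) → ℝ) : Ex p (fun x => c * F x) = c * Ex p F := by
  simp only [Ex, mul_sum]; exact sum_congr rfl fun x _ => by ring

lemma Ex_mul' (c : ℝ) (F : (ι → Bool) → ℝ) : Ex p (fun x => F x * c) = Ex p F * c := by
  simp only [Ex, sum_mul]; exact sum_congr rfl fun x _ => by ring

lemma Ex_const (c : ℝ) : Ex p (fun _ : ι → Bool => c) = c := by
  simpa [Ex_one] using Ex_mul (p := p) c (fun _ : ι → Bool => 1)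

lemma Ex_add (F G : (ι → Bool) → ℝ) : Ex p (fun x => F x + G x) = Ex p F + Ex p G := by
  simp only [Ex, mul_add, sum_add_distrib]

lemma Ex_sub (F G : (ι → Bool) → ℝ) : Ex p (fun x => F x - G x) = Ex p F - Ex p G := by
  simp only [Ex, mul_sub, sum_sub_distrib]

lemma Ex_sum {α : Type} (s : Finset α) (F : α → (ι → Bool) → ℝ) :
    Ex p (fun x => ∑ a ∈ s, F a x) = ∑ a ∈ s, Ex p (F a) := by
  simp only [Ex, mul_sum]; exact sum_comm

lemma Ex_comm {κ : Type} [Fintype κ] [DecidableEq κ] (q : ℝ) (F : (ι → Bool) → (κ → Bool) → ℝ) :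
    Ex p (fun x => Ex q (F x)) = Ex q (fun y => Ex p fun x => F x y) := by
  simp only [Ex, mul_sum]; rw [sum_comm]
  exact sum_congr rfl fun y _ => sum_congr rfl fun x _ => by ring

omit [DecidableEq ι] in
lemma wt_nonneg (h0 : 0 ≤ p) (h1 : p ≤ 1) (x : ι → Bool) : 0 ≤ wt p x :=
  prod_nonneg fun e _ => by split_ifs <;> linarith

lemma Ex_mono (h0 : 0 ≤ p) (h1 : p ≤ 1) {F G : (ι → Bool) → ℝ} (h : ∀ x, F x ≤ G x) :
    Ex p F ≤ Ex p G :=
  sum_le_sum fun x _ => mul_le_mul_of_nonneg_left (h x) (wt_nonneg h0 h1 x)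

lemma Ex_nonneg (h0 : 0 ≤ p) (h1 : p ≤ 1) {F : (ι → Bool) → ℝ} (h : ∀ x, 0 ≤ F x) : 0 ≤ Ex p F := by
  simpa [Ex_const] using Ex_mono h0 h1 (F := fun _ => 0) h

lemma Ex_le (h0 : 0 ≤ p) (h1 : p ≤ 1) {F : (ι → Bool) → ℝ} {c : ℝ} (h : ∀ x, F x ≤ c) :
    Ex p F ≤ c := by
  simpa [Ex_const] using Ex_mono h0 h1 (G := fun _ => c) h

lemma Ex_cs (h0 : 0 ≤ p) (h1 : p ≤ 1) (F G : (ι → Bool) → ℝ) :
    Ex p (fun x => F x * G x) ^ 2 ≤ Ex p (fun x => F x ^ 2) * Ex p (fun x => G x ^ 2) :=
  sum_sq_le_sum_mul_sum_of_sq_le_mul _ (fun x _ => mul_nonneg (wt_nonneg h0 h1 x) (sq_nonneg _))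
    (fun x _ => mul_nonneg (wt_nonneg h0 h1 x) (sq_nonneg _)) fun x _ => le_of_eq (by ring)

lemma Ex_sq (h0 : 0 ≤ p) (h1 : p ≤ 1) (F : (ι → Bool) → ℝ) :
    Ex p F ^ 2 ≤ Ex p (fun x => F x ^ 2) := by
  simpa [Ex_const] using Ex_cs h0 h1 F (fun _ => 1)

lemma Ex_swap (T : Finset ι) (Ψ : (ι → Bool) → (ι → Bool) → ℝ) :
    Ex p (fun x => Ex p fun ω => Ψ (mix T x ω) (mix T ω x)) = Ex p (fun x => Ex p (Ψ x)) := by
  simp only [Ex, mul_sum]
  rw [← Fintype.sum_prod_type', ← Fintype.sum_prod_type']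
  have hinv : Function.Involutive
      (fun z : (ι → Bool) × (ι → Bool) => (mix T z.1 z.2, mix T z.2 z.1)) := fun z => by
    ext e <;> by_cases h : e ∈ T <;> simp [mix, h]
  refine Fintype.sum_equiv hinv.toPerm _ _ fun z => ?_
  have : wt p (mix T z.1 z.2) * wt p (mix T z.2 z.1) = wt p z.1 * wt p z.2 := by
    simp only [wt, ← prod_mul_distrib]
    exact prod_congr rfl fun e _ => by by_cases h : e ∈ T <;> simp [mix, h, mul_comm]
  simp only [Function.Involutive.coe_toPerm]
  rw [← mul_assoc, ← mul_assoc, this]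

lemma Ex_Av (T : Finset ι) (F : (ι → Bool) → ℝ) : Ex p (Av p T F) = Ex p F := by
  have := Ex_swap (p := p) T (fun x _ => F x)
  simp only [Ex_const] at this
  exact this

lemma Av_inv (T : Finset ι) (F : (ι → Bool) → ℝ) : Inv T (Av p T F) := fun x ω => by
  unfold Av; congr 1; funext ω'; congr 1; funext e; by_cases h : e ∈ T <;> simp [mix, h]

lemma Inv.Av {T : Finset ι} {F : (ι → Bool) → ℝ} (h : Inv T F) (T' : Finset ι) :
    Inv T (Av p T' F) := fun x ω => by
  unfold P063.Av; congr 1; funext ω'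
  rw [← h (mix T' x ω') (mix T' ω ω')]
  congr 1; funext e; by_cases h : e ∈ T <;> by_cases h' : e ∈ T' <;> simp [mix, h, h']

lemma Av_mul_inv {T : Finset ι} {G : (ι → Bool) → ℝ} (h : Inv T G) (F : (ι → Bool) → ℝ) (x) :
    Av p T (fun x => G x * F x) x = G x * Av p T F x := by
  simp only [Av, h x, Ex_mul]

lemma Ex_inv_mul {T : Finset ι} {G : (ι → Bool) → ℝ} (h : Inv T G) (F : (ι → Bool) → ℝ) :
    Ex p (fun x => G x * F x) = Ex p (fun x => G x * Av p T F x) := by
  rw [← Ex_Av T]; congr 1; funext x; exact Av_mul_inv h F x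

lemma Av_Av (T T' : Finset ι) (F : (ι → Bool) → ℝ) (x) :
    Av p T (Av p T' F) x = Av p (T ∪ T') F x := by
  have := Ex_swap (p := p) T' (fun ω ω' => F (mix T' (mix T x ω) ω'))
  unfold Av
  rw [← this]
  congr 1; funext ω
  rw [← Ex_const (p := p) (ι := ι) (F (mix (T ∪ T') x ω))]
  congr 1; funext ω'; congr 1; funext e
  by_cases h : e ∈ T <;> by_cases h' : e ∈ T' <;> simp [mix, h, h']

lemma Ex_coord (e : ι) (g : Bool → ℝ) :
    Ex p (fun x : ι → Bool => g (x e)) = p * g true + (1 - p) * g false := by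
  have := Ex_prod (p := p) (fun e' b => if e' = e then g b else 1)
  simp only [prod_ite_eq', mem_univ, if_true] at this
  rw [this, prod_eq_single e] <;> simp +contextual

lemma Av_single (e : ι) (F : (ι → Bool) → ℝ) (x) : Av p {e} F x =
    p * F (Function.update x e true) + (1 - p) * F (Function.update x e false) := by
  rw [← Ex_coord e (fun b => F (Function.update x e b)), Av]
  congr 1; funext ω; congr 1; funext e'
  by_cases h : e' = e
  · subst h; simp [mix]
  · simp [mix, h]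

lemma Ex_perm (σ : Equiv.Perm ι) (F : (ι → Bool) → ℝ) : Ex p (fun x => F (x ∘ σ)) = Ex p F := by
  unfold Ex
  refine Fintype.sum_equiv (Equiv.arrowCongr σ.symm (Equiv.refl _)) _ _ fun x => ?_
  have e : (Equiv.arrowCongr σ.symm (Equiv.refl Bool)) x = x ∘ σ := by funext e; simp
  rw [e, wt, wt, ← Equiv.prod_comp σ]; rfl

noncomputable def phi (p : ℝ) (b : Bool) : ℝ := (if b then 1 - p else -p) / √(p * (1 - p))

noncomputable def chi (p : ℝ) (S : Finset ι) (x : ι → Bool) : ℝ := ∏ e ∈ S, phi p (x e)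

noncomputable def hat (p : ℝ) (F : (ι → Bool) → ℝ) (S : Finset ι) : ℝ :=
  Ex p fun x => F x * chi p S x

noncomputable def syn (p : ℝ) (c : Finset ι → ℝ) (x : ι → Bool) : ℝ := ∑ S, c S * chi p S x

lemma phi_mean : p * phi p true + (1 - p) * phi p false = 0 := by simp [phi]; ring

lemma phi_mul (h0 : 0 < p) (h1 : p < 1) (a b : Bool) : phi p a * phi p b =
    (if a then 1 - p else -p) * (if b then 1 - p else -p) / (p * (1 - p)) := by
  rw [phi, phi, div_mul_div_comm, Real.mul_self_sqrt (by nlinarith)]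

lemma phi_var (h0 : 0 < p) (h1 : p < 1) :
    p * (phi p true * phi p true) + (1 - p) * (phi p false * phi p false) = 1 := by
  have : 1 - p ≠ 0 := by linarith
  simp only [phi_mul h0 h1]; simp; field_simp; ring

lemma chi_eq (S : Finset ι) (x : ι → Bool) :
    chi p S x = ∏ e, if e ∈ S then phi p (x e) else 1 := by
  rw [chi, prod_ite_mem, univ_inter]

lemma Av_chi_chi (h0 : 0 < p) (h1 : p < 1) (T S S' : Finset ι) (x : ι → Bool) :
    Av p T (fun x => chi p S x * chi p S' x) x =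
      if S ∩ T = S' ∩ T then chi p (S \ T) x * chi p (S' \ T) x else 0 := by
  have := Ex_prod (p := p) (fun e b => (if e ∈ S then phi p (if e ∈ T then b else x e) else 1) *
    (if e ∈ S' then phi p (if e ∈ T then b else x e) else 1))
  simp only [Av, chi_eq, ← prod_mul_distrib, mix]
  rw [this]
  split_ifs with h
  · refine prod_congr rfl fun e _ => ?_
    have h2 : e ∈ S ∩ T ↔ e ∈ S' ∩ T := by rw [h]
    by_cases a : e ∈ T <;> by_cases b : e ∈ S <;> by_cases c : e ∈ S' <;>
      simp [a, b, c, phi_var h0 h1] at h2 ⊢ <;> ring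
  · obtain ⟨e, he⟩ : ∃ e, ¬ (e ∈ S ∩ T ↔ e ∈ S' ∩ T) := by
      by_contra hc
      push Not at hc
      exact h (Finset.ext hc)
    refine prod_eq_zero (mem_univ e) ?_
    by_cases a : e ∈ T <;> by_cases b : e ∈ S <;> by_cases c : e ∈ S' <;>
      simp [a, b, c, phi_mean] at he ⊢

lemma Av_univ (F : (ι → Bool) → ℝ) (x) : Av p univ F x = Ex p F := by
  unfold Av; congr 1; funext ω; congr 1; funext e; simp [mix]

lemma Ex_chi_chi (h0 : 0 < p) (h1 : p < 1) (S S' : Finset ι) :
    Ex p (fun x => chi p S x * chi p S' x) = if S = S' then 1 else 0 := by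
  rw [← Av_univ _ (fun _ => true), Av_chi_chi h0 h1]
  simp [chi, sdiff_eq_empty_iff_subset.2 (subset_univ _)]

lemma Av_chi (h0 : 0 < p) (h1 : p < 1) (T S : Finset ι) (x : ι → Bool) :
    Av p T (chi p S) x = if Disjoint S T then chi p S x else 0 := by
  have := Av_chi_chi h0 h1 T S ∅ x
  simp only [chi, prod_empty, mul_one, empty_inter, empty_sdiff] at this
  unfold chi
  rw [this]
  by_cases h : Disjoint S T
  · rw [if_pos h, if_pos (disjoint_iff_inter_eq_empty.1 h), sdiff_eq_self_of_disjoint h]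
  · rw [if_neg h, if_neg fun h' => h (disjoint_iff_inter_eq_empty.2 h')]

lemma syn_hat (h0 : 0 < p) (h1 : p < 1) (F : (ι → Bool) → ℝ) : syn p (hat p F) = F := by
  funext x
  have k : ∀ y : ι → Bool, wt p y * ∑ S, chi p S y * chi p S x = if y = x then 1 else 0 := by
    intro y
    have e1 : ∑ S : Finset ι, chi p S y * chi p S x = ∏ e, (1 + phi p (y e) * phi p (x e)) := by
      rw [prod_one_add, powerset_univ]
      exact sum_congr rfl fun S _ => by rw [chi, chi, prod_mul_distrib]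
    have hp : 1 - p ≠ 0 := by linarith
    rw [e1, wt, ← prod_mul_distrib]
    split_ifs with h
    · subst h
      refine prod_eq_one fun e _ => ?_
      rw [phi_mul h0 h1]; cases y e <;> simp <;> field_simp <;> ring
    · obtain ⟨e, he⟩ := Function.ne_iff.1 h
      refine prod_eq_zero (mem_univ e) ?_
      rw [phi_mul h0 h1]
      revert he
      cases y e <;> cases x e <;> simp <;> right <;> field_simp <;> ring
  calc syn p (hat p F) x = ∑ y, F y * (wt p y * ∑ S, chi p S y * chi p S x) := by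
        simp only [syn, hat, Ex, sum_mul, mul_sum]
        rw [sum_comm]
        exact sum_congr rfl fun y _ => sum_congr rfl fun S _ => by ring
    _ = F x := by simp [k]

lemma Ex_syn_syn (h0 : 0 < p) (h1 : p < 1) (c c' : Finset ι → ℝ) :
    Ex p (fun x => syn p c x * syn p c' x) = ∑ S, c S * c' S := by
  have : ∀ x, syn p c x * syn p c' x = ∑ S, ∑ S', (c S * c' S') * (chi p S x * chi p S' x) := by
    intro x
    rw [syn, syn, sum_mul_sum]
    exact sum_congr rfl fun S _ => sum_congr rfl fun S' _ => by ring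
  simp only [this, Ex_sum, Ex_mul, Ex_chi_chi h0 h1]
  simp

lemma Ex_syn_sq (h0 : 0 < p) (h1 : p < 1) (c : Finset ι → ℝ) :
    Ex p (fun x => syn p c x ^ 2) = ∑ S, c S ^ 2 := by
  simp only [sq, Ex_syn_syn h0 h1]

lemma Av_syn (h0 : 0 < p) (h1 : p < 1) (T : Finset ι) (c : Finset ι → ℝ) (x) :
    Av p T (syn p c) x = syn p (fun S => if Disjoint S T then c S else 0) x := by
  have := fun S => Av_chi h0 h1 T S x
  unfold Av at this ⊢
  simp only [syn, Ex_sum, Ex_mul, this]
  exact sum_congr rfl fun S _ => by split_ifs <;> simp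

lemma Av_syn_syn_zero (h0 : 0 < p) (h1 : p < 1) (T : Finset ι) (c c' : Finset ι → ℝ)
    (h : ∀ S S', S ∩ T = S' ∩ T → c S * c' S' = 0) (x) :
    Av p T (fun x => syn p c x * syn p c' x) x = 0 := by
  have e : ∀ x, syn p c x * syn p c' x = ∑ S, ∑ S', (c S * c' S') * (chi p S x * chi p S' x) := by
    intro x
    rw [syn, syn, sum_mul_sum]
    exact sum_congr rfl fun S _ => sum_congr rfl fun S' _ => by ring
  have := fun S S' => Av_chi_chi h0 h1 T S S' x
  unfold Av at this ⊢
  simp only [e, Ex_sum, Ex_mul, this]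
  refine sum_eq_zero fun S _ => sum_eq_zero fun S' _ => ?_
  split_ifs with h2
  · rw [h S S' h2, zero_mul]
  · rw [mul_zero]

lemma syn_add (c c' : Finset ι → ℝ) (x) :
    syn p (fun S => c S + c' S) x = syn p c x + syn p c' x := by
  simp only [syn, add_mul, sum_add_distrib]

lemma syn_sub (c c' : Finset ι → ℝ) (x) :
    syn p (fun S => c S - c' S) x = syn p c x - syn p c' x := by
  simp only [syn, sub_mul, sum_sub_distrib]

end Vale.Agent.P063
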