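import Vale.Agent.P063.Basic

namespace Vale.Agent.P063
open Finset

variable {ι : Type} [Fintype ι] [DecidableEq ι] {p : ℝ}

lemma Av_mono (h0 : 0 ≤ p) (h1 : p ≤ 1) (T : Finset ι) {F G : (ι → Bool) → ℝ} (h : ∀ x, F x ≤ G x)
    (x) : Av p T F x ≤ Av p T G x := Ex_mono h0 h1 fun _ => h _

lemma Av_nonneg (h0 : 0 ≤ p) (h1 : p ≤ 1) (T : Finset ι) {F : (ι → Bool) → ℝ} (h : ∀ x, 0 ≤ F x)
    (x) : 0 ≤ Av p T F x := Ex_nonneg h0 h1 fun _ => h _

lemma Av_cs (h0 : 0 ≤ p) (h1 : p ≤ 1) (T : Finset ι) (F G : (ι → Bool) → ℝ) (x) :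
    Av p T (fun x => F x * G x) x ^ 2 ≤
      Av p T (fun x => F x ^ 2) x * Av p T (fun x => G x ^ 2) x := Ex_cs h0 h1 _ _

lemma one_step (h0 : 0 < p) (h1 : p < 1) (E D : ℝ) :
    p * (E + phi p true * D) ^ 4 + (1 - p) * (E + phi p false * D) ^ 4 ≤
      E ^ 4 + 8 * (D ^ 2 * E ^ 2) + 3 / (p * (1 - p)) * D ^ 4 := by
  obtain ⟨a, ha⟩ : ∃ a, a = phi p true := ⟨_, rfl⟩
  obtain ⟨b, hb⟩ : ∃ b, b = phi p false := ⟨_, rfl⟩
  have hq : 0 < 1 - p := by linarith
  have m1 : p * a + (1 - p) * b = 0 := by rw [ha, hb]; exact phi_mean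
  have m2 : p * (a * a) + (1 - p) * (b * b) = 1 := by rw [ha, hb]; exact phi_var h0 h1
  have a2 : a * a = (1 - p) / p := by rw [ha, phi_mul h0 h1]; simp; field_simp
  have b2 : b * b = p / (1 - p) := by rw [hb, phi_mul h0 h1]; simp; field_simp
  obtain ⟨B, hB⟩ : ∃ B, B = 1 / (p * (1 - p)) := ⟨_, rfl⟩
  have m4 : p * a ^ 4 + (1 - p) * b ^ 4 ≤ B := by
    have : p * a ^ 4 + (1 - p) * b ^ 4 = ((1 - p) ^ 3 + p ^ 3) / (p * (1 - p)) := by
      rw [show a ^ 4 = (a * a) ^ 2 by ring, show b ^ 4 = (b * b) ^ 2 by ring, a2, b2]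
      field_simp
    rw [this, hB]
    gcongr
    nlinarith [mul_pos h0 hq]
  have m3 : (p * a ^ 3 + (1 - p) * b ^ 3) ^ 2 ≤ p * a ^ 4 + (1 - p) * b ^ 4 := by
    have : (p * a ^ 4 + (1 - p) * b ^ 4) * (p * (a * a) + (1 - p) * (b * b)) -
      (p * a ^ 3 + (1 - p) * b ^ 3) ^ 2 = p * (1 - p) * (a ^ 2 * b - a * b ^ 2) ^ 2 := by ring
    rw [m2] at this
    nlinarith [mul_nonneg (mul_pos h0 hq).le (sq_nonneg (a ^ 2 * b - a * b ^ 2))]
  rw [← ha, ← hb, show 3 / (p * (1 - p)) = 3 * B by rw [hB]; ring]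
  have e : p * (E + a * D) ^ 4 + (1 - p) * (E + b * D) ^ 4 = E ^ 4 +
      4 * E ^ 3 * D * (p * a + (1 - p) * b) + 6 * (D ^ 2 * E ^ 2) * (p * (a * a) + (1 - p) * (b * b))
      + 4 * E * D ^ 3 * (p * a ^ 3 + (1 - p) * b ^ 3) + D ^ 4 * (p * a ^ 4 + (1 - p) * b ^ 4) := by
    ring
  rw [e, m1, m2]
  have h4 : 0 ≤ D ^ 4 := by positivity
  nlinarith [sq_nonneg (D * E - D ^ 2 * (p * a ^ 3 + (1 - p) * b ^ 3)),
    mul_le_mul_of_nonneg_left m4 h4, mul_le_mul_of_nonneg_left (m3.trans m4) h4]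

lemma syn_update {e : ι} {c : Finset ι → ℝ} (h : ∀ S, e ∈ S → c S = 0) (x : ι → Bool) (b : Bool) :
    syn p c (Function.update x e b) = syn p c x := by
  refine sum_congr rfl fun S _ => ?_
  by_cases he : e ∈ S
  · simp [h S he]
  · congr 1
    exact prod_congr rfl fun e' he' => by
      rw [Function.update_of_ne (show e' ≠ e from fun h => he (h ▸ he'))]

lemma syn_split (e : ι) (c : Finset ι → ℝ) (x : ι → Bool) :
    syn p c x = syn p (fun S => if e ∈ S then 0 else c S) x +
      phi p (x e) * syn p (fun S => if e ∈ S then 0 else c (insert e S)) x := by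
  have h1 : ∀ c : Finset ι → ℝ, syn p (fun S => if e ∈ S then 0 else c S) x =
      ∑ S ∈ powerset (univ.erase e), c S * chi p S x := fun c => by
    rw [syn, ← sum_filter_add_sum_filter_not univ (fun S => e ∈ S),
      sum_eq_zero fun S hS => by rw [if_pos (mem_filter.1 hS).2, zero_mul], zero_add]
    refine sum_congr ?_ fun S hS => ?_
    · ext S; simp [subset_erase]
    · rw [if_neg (subset_erase.1 (mem_powerset.1 hS)).2]
  rw [h1, h1, syn, ← powerset_univ, ← insert_erase (mem_univ e),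
    sum_powerset_insert (notMem_erase e _), erase_insert (notMem_erase e _), mul_sum]
  congr 1
  refine sum_congr rfl fun S hS => ?_
  rw [chi, prod_insert (subset_erase.1 (mem_powerset.1 hS)).2, chi]; ring

lemma bonami (h0 : 0 < p) (h1 : p < 1) (T : Finset ι) : ∀ (d : ℕ) (c : Finset ι → ℝ),
    (∀ S, d < (S ∩ T).card → c S = 0) → ∀ x, Av p T (fun x => syn p c x ^ 4) x ≤
      (16 / (p * (1 - p))) ^ d * Av p T (fun x => syn p c x ^ 2) x ^ 2 := by
  have hq : 0 < 1 - p := by linarith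
  obtain ⟨B, hB⟩ : ∃ B, B = 1 / (p * (1 - p)) := ⟨_, rfl⟩
  have hB1 : 1 ≤ B := by rw [hB, le_div_iff₀ (by positivity)]; nlinarith [sq_nonneg p]
  rw [show 16 / (p * (1 - p)) = 16 * B by rw [hB]; ring]
  induction T using Finset.induction_on with
  | empty =>
    intro d c _ x
    have : ∀ ω, mix ∅ x ω = x := fun ω => by funext e; simp [mix]
    simp only [Av, this, Ex_const]
    have : (1 : ℝ) ≤ (16 * B) ^ d := one_le_pow₀ (by linarith)
    nlinarith [sq_nonneg (syn p c x ^ 2)]
  | insert e T he ih =>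
    intro d c hc x
    obtain ⟨cE, hcE⟩ : ∃ cE : Finset ι → ℝ, cE = fun S => if e ∈ S then 0 else c S := ⟨_, rfl⟩
    obtain ⟨cD, hcD⟩ : ∃ cD : Finset ι → ℝ, cD = fun S => if e ∈ S then 0 else c (insert e S) :=
      ⟨_, rfl⟩
    have hup : ∀ y b, syn p c (Function.update y e b) = syn p cE y + phi p b * syn p cD y := by
      intro y b
      rw [syn_split e c, ← hcE, ← hcD, syn_update (by simp +contextual [hcE]),
        syn_update (by simp +contextual [hcD]), Function.update_self]
    have hU : insert e T = T ∪ {e} := by ext; simp [or_comm]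
    have hE := ih d cE (fun S hS => by
      rw [hcE]
      by_cases h : e ∈ S
      · simp [h]
      · simp only [h, if_false]
        exact hc S (hS.trans_le (card_le_card (inter_subset_inter_left (subset_insert _ _))))) x
    have hDc : ∀ S, d < (S ∩ T).card + 1 → cD S = 0 := fun S hS => by
      rw [hcD]
      by_cases h : e ∈ S
      · simp [h]
      · simp only [h, if_false]
        refine hc _ ?_
        rw [← insert_inter_distrib, card_insert_of_notMem (by simp [h])]
        exact hS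
    have s2 : Av p (insert e T) (fun x => syn p c x ^ 2) x =
        Av p T (fun x => syn p cE x ^ 2) x + Av p T (fun x => syn p cD x ^ 2) x := by
      rw [hU, ← Av_Av, Av, Av, Av, ← Ex_add]
      congr 1; funext ω
      rw [Av_single, hup, hup]
      have m1 := phi_mean (p := p)
      have m2 := phi_var h0 h1
      linear_combination 2 * syn p cE (mix T x ω) * syn p cD (mix T x ω) * m1 +
        syn p cD (mix T x ω) ^ 2 * m2
    have s4 : Av p (insert e T) (fun x => syn p c x ^ 4) x ≤ Av p T (fun x => syn p cE x ^ 4) x +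
        8 * Av p T (fun x => syn p cD x ^ 2 * syn p cE x ^ 2) x +
        3 * B * Av p T (fun x => syn p cD x ^ 4) x := by
      rw [hU, ← Av_Av, Av, Av, Av, Av, ← Ex_mul, ← Ex_mul, ← Ex_add, ← Ex_add]
      refine Ex_mono h0.le h1.le fun ω => ?_
      rw [Av_single, hup, hup, show 3 * B = 3 / (p * (1 - p)) by rw [hB]; ring]
      exact one_step h0 h1 _ _
    have cs := Av_cs h0.le h1.le T (fun x => syn p cD x ^ 2) (fun x => syn p cE x ^ 2) x
    simp only [← pow_mul] at cs
    have na := Av_nonneg h0.le h1.le T (fun x => sq_nonneg (syn p cE x)) x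
    have nb := Av_nonneg h0.le h1.le T (fun x => sq_nonneg (syn p cD x)) x
    have n4 : 0 ≤ Av p T (fun x => syn p cD x ^ 4) x :=
      Av_nonneg h0.le h1.le T (fun x => by positivity) x
    rw [s2]
    refine s4.trans ?_
    rcases d with _ | d
    · have z : ∀ y, syn p cD y = 0 := fun y => by simp [syn, hDc]
      simp only [z, Av, Ex_const] at hE ⊢
      simpa [Ex_const] using hE
    · have hD := ih d cD (fun S hS => hDc S (by omega)) x
      generalize Av p T (fun x => syn p cE x ^ 2) x = a at *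
      generalize Av p T (fun x => syn p cD x ^ 2) x = b at *
      generalize Av p T (fun x => syn p cE x ^ 4) x = A at *
      generalize Av p T (fun x => syn p cD x ^ 4) x = D at *
      generalize Av p T (fun x => syn p cD x ^ 2 * syn p cE x ^ 2) x = X at *
      obtain ⟨K, hK⟩ : ∃ K, K = (16 * B) ^ d := ⟨_, rfl⟩
      have hK0 : 0 ≤ K := by rw [hK]; positivity
      rw [pow_succ, ← hK] at hE ⊢
      rw [← hK] at hD
      have hX : X ≤ 4 * B * K * a * b := by
        refine le_trans (le_abs_self X) (abs_le_of_sq_le_sq' ?_ (by positivity)).2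
        rw [sq_abs]
        calc X ^ 2 ≤ D * A := cs
          _ ≤ (K * b ^ 2) * (K * (16 * B) * a ^ 2) := by
            rcases le_total 0 A with hA | hA
            · exact mul_le_mul hD hE hA (by positivity)
            · exact (mul_nonpos_of_nonneg_of_nonpos n4 hA).trans (by positivity)
          _ = 16 * (K * a * b) ^ 2 * B := by ring
          _ ≤ 16 * (K * a * b) ^ 2 * B ^ 2 := by gcongr; nlinarith
          _ = _ := by ring
      have hD' : 3 * B * D ≤ 3 * B * (K * b ^ 2) := by gcongr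
      have : 0 ≤ B * (K * b ^ 2) := by positivity
      nlinarith

end Vale.Agent.P063
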