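import Vale.Agent.P063.Special

namespace Vale.Agent.P063
open Finset

variable {ι : Type} [Fintype ι] [DecidableEq ι] {p : ℝ}
variable {V : Type} [Fintype V] [DecidableEq V] (star : V → Finset ι)

lemma amgm {c a b l : ℝ} (hl : 0 < l) (ha : 0 ≤ a) (hb : 0 ≤ b) (h : c ^ 2 ≤ a * b) :
    c ≤ l / 2 * a + b / (2 * l) := by
  refine (abs_le_of_sq_le_sq' (h.trans ?_) (by positivity)).2
  have : (l / 2 * a + b / (2 * l)) ^ 2 = a * b + (l / 2 * a - b / (2 * l)) ^ 2 := by
    field_simp; ring
  rw [this]; nlinarith [sq_nonneg (l / 2 * a - b / (2 * l))]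

noncomputable def Var (p : ℝ) (f : (ι → Bool) → ℝ) : ℝ := ∑ S, if S = ∅ then 0 else hat p f S ^ 2
noncomputable def Inf (p : ℝ) (f : (ι → Bool) → ℝ) : ℝ := ∑ S, (S.card : ℝ) * hat p f S ^ 2

lemma Var_nonneg (f : (ι → Bool) → ℝ) : 0 ≤ Var p f :=
  sum_nonneg fun S _ => by split_ifs <;> positivity

lemma Var_le_Inf (f : (ι → Bool) → ℝ) : Var p f ≤ Inf p f := sum_le_sum fun S _ => by
  split_ifs with h
  · positivity
  · exact le_mul_of_one_le_left (sq_nonneg _)
      (by exact_mod_cast card_pos.2 (nonempty_iff_ne_empty.2 h))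

lemma pt_bound (h0 : 0 < p) (h1 : p < 1) {f : (ι → Bool) → ℝ} (hf : ∀ x, f x = 0 ∨ f x = 1)
    (T : Finset ι) (c : Finset ι → ℝ) (hc : ∀ S, Disjoint S T → c S = 0) (d : ℕ) {τ ε l : ℝ}
    (hε0 : 0 < ε) (hl : 0 < l) (hε : 8 * τ * (16 / (p * (1 - p))) ^ d ≤ ε ^ 4) (x)
    (hx : vv p T f x < τ) :
    Av p T (fun x => f x * syn p c x) x ≤ ε / 2 * (vv p T f x +
      Av p T (fun x => syn p (fun S => if d < (S ∩ T).card then 0 else c S) x ^ 2) x) +
      (l / 2 * Av p T (fun x => syn p (fun S => if d < (S ∩ T).card then hat p f S else 0) x ^ 2) x +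
        Av p T (fun x => syn p (fun S => if d < (S ∩ T).card then c S else 0) x ^ 2) x / (2 * l)) := by
  obtain ⟨lo, hlo⟩ : ∃ lo, lo = syn p (fun S => if d < (S ∩ T).card then 0 else c S) := ⟨_, rfl⟩
  obtain ⟨hi, hhi⟩ : ∃ hi, hi = syn p (fun S => if d < (S ∩ T).card then c S else 0) := ⟨_, rfl⟩
  obtain ⟨fl, hfl⟩ : ∃ fl, fl = syn p (fun S => if d < (S ∩ T).card then 0 else hat p f S) := ⟨_, rfl⟩
  obtain ⟨fh, hfh⟩ : ∃ fh, fh = syn p (fun S => if d < (S ∩ T).card then hat p f S else 0) := ⟨_, rfl⟩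
  have e1 : ∀ y, syn p c y = lo y + hi y := fun y => by
    rw [hlo, hhi, ← syn_add]; congr 1; funext S; split_ifs <;> simp
  have e2 : ∀ y, f y = fl y + fh y := fun y => by
    conv_lhs => rw [← syn_hat h0 h1 f]
    rw [hfl, hfh, ← syn_add]; congr 1; funext S; split_ifs <;> simp
  have e3 : Av p T (fun x => fl x * hi x) x = 0 := by
    rw [hfl, hhi]
    refine Av_syn_syn_zero h0 h1 T _ _ (fun S S' h => ?_) x
    rw [h]; split_ifs <;> simp
  have e4 : Av p T (fun x => f x * syn p c x) x =
      Av p T (fun x => f x * lo x) x + Av p T (fun x => fh x * hi x) x := by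
    have : ∀ y, f y * syn p c y = f y * lo y + (fl y * hi y + fh y * hi y) := fun y => by
      rw [e1, mul_add, ← add_mul, ← e2]
    unfold Av at e3 ⊢
    simp only [this, Ex_add, e3, zero_add]
  rw [e4, ← hlo, ← hhi, ← hfh]
  have nn : ∀ g : (ι → Bool) → ℝ, 0 ≤ Av p T (fun x => g x ^ 2) x := fun g =>
    Av_nonneg h0.le h1.le T (fun x => sq_nonneg _) x
  refine add_le_add ?_ (amgm hl (nn _) (nn _) (Av_cs h0.le h1.le T _ _ x))
  have z : Av p T lo x = 0 := by
    rw [hlo, Av_syn h0 h1, syn]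
    refine sum_eq_zero fun S _ => ?_
    split_ifs with a b <;> simp
    exact Or.inl (hc S a)
  have b1 := cov_four h0 h1 hf T lo x z
  have b2 := bonami h0 h1 T d (fun S => if d < (S ∩ T).card then 0 else c S)
    (fun S h => if_pos h) x
  rw [← hlo] at b2
  have v0 := (vv_bd h0 h1 hf T x).1
  have hq : 0 < 1 - p := by linarith
  have b3 : Av p T (fun x => f x * lo x) x ^ 2 ≤
      (ε * vv p T f x) * (ε * Av p T (fun x => lo x ^ 2) x) := by
    refine (abs_le_of_sq_le_sq' ?_ (by have := nn lo; positivity)).2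
    calc _ = Av p T (fun x => f x * lo x) x ^ 4 := by ring
      _ ≤ 8 * vv p T f x ^ 3 * ((16 / (p * (1 - p))) ^ d * Av p T (fun x => lo x ^ 2) x ^ 2) :=
        b1.trans (by gcongr)
      _ = 8 * vv p T f x * (16 / (p * (1 - p))) ^ d *
        (vv p T f x * Av p T (fun x => lo x ^ 2) x) ^ 2 := by ring
      _ ≤ ε ^ 4 * (vv p T f x * Av p T (fun x => lo x ^ 2) x) ^ 2 := by
        refine mul_le_mul_of_nonneg_right (le_trans ?_ hε) (sq_nonneg _)
        gcongr
      _ = _ := by ring
  have := amgm one_pos (by positivity) (by have := nn lo; positivity) b3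
  linarith

set_option maxHeartbeats 1000000 in
theorem core (h0 : 0 < p) (h1 : p < 1) {f : (ι → Bool) → ℝ} (hf : ∀ x, f x = 0 ∨ f x = 1)
    (r d s : ℕ) {τ M ε l l2 : ℝ} (hτ : 0 < τ) (hM : 0 < M) (hε0 : 0 < ε) (hl : 0 < l) (hl2 : 0 < l2)
    (hd : 0 < d) (hs0 : 0 < s) (hV : 0 < Fintype.card V)
    (hε : 8 * τ * (16 / (p * (1 - p))) ^ d ≤ ε ^ 4)
    (hn : M + Fintype.card V * τ / 8 ≤ Fintype.card V / 2)
    (hA : ∀ S, S ≠ ∅ → 0 < (VS star S).card)
    (hB : ∀ S, ∑ u, (S ∩ star u).card ≤ r * S.card)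
    (hC : ∀ S u, d < (S ∩ star u).card → s ≤ (VS star S).card)
    (hs : ∀ u u' (Φ : ℝ → ℝ) x, Av p (star u') (fun x => Φ (Av p (star u) f x)) x =
      Av p (star u) (fun x => Φ (Av p (star u') f x)) x) :
    Var p f / 2 ≤ ε / 2 * (r * Inf p f + Var p f) + (l / 2 * (r * Inf p f / d) +
      Var p f / s / (2 * l)) + (4 * (32 / 5 * M / Fintype.card V * (r * Inf p f)) + Var p f / 16) +
      8 / τ * (4 / (τ * M) * (r * Inf p f) * (Fintype.card V * l2 / 8 +
        (∑ k ∈ range (2 * Fintype.card V), 1 / ((k + 1 : ℕ) : ℝ)) / (2 * l2))) := by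
  obtain ⟨L, hL⟩ : ∃ L, L = 2 * Fintype.card V := ⟨_, rfl⟩
  rw [← hL]
  have hL0 : 0 < L := by omega
  have hV' : (0 : ℝ) < Fintype.card V := by exact_mod_cast hV
  obtain ⟨c, hc⟩ : ∃ c : V → Finset ι → ℝ, c = fun u S =>
    if u ∈ VS star S then mm L (VS star S).card * hat p f S else 0 := ⟨_, rfl⟩
  have hg : ∀ u x, gg star p L f u x = syn p (c u) x := fun u x => by
    conv_lhs => rw [← syn_hat h0 h1 f]
    rw [gg_syn star h0 h1, hc]
  have hcz : ∀ u S, Disjoint S (star u) → c u S = 0 := fun u S h => by simp [hc, VS, h]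
  have sumV : ∀ (S : Finset ι) (a : ℝ), ∑ u, (if u ∈ VS star S then a else 0) =
      (VS star S).card * a := fun S a => by
    rw [sum_ite_mem, univ_inter, sum_const, nsmul_eq_mul]
  have v0 : VS star (∅ : Finset ι) = ∅ := by simp [VS]
  have mle : ∀ v : ℕ, 0 < v → (v : ℝ) * mm L v ^ 2 ≤ 1 / v := fun v hv => by
    have a := (mm_bounds hL0 hv).1
    have b := mm_nonneg L v
    have hv' : (0 : ℝ) < v := by exact_mod_cast hv
    rw [le_div_iff₀ hv']
    have : 0 ≤ (v : ℝ) * mm L v := by positivity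
    nlinarith
  -- the sums
  have S0 : Var p f / 2 ≤ ∑ u, Ex p (Av p (star u) fun x => f x * syn p (c u) x) := by
    have : ∀ u, Ex p (Av p (star u) fun x => f x * syn p (c u) x) = ∑ S, hat p f S * c u S :=
      fun u => by rw [Ex_Av, ← Ex_syn_syn h0 h1, syn_hat h0 h1]
    simp only [this]
    rw [sum_comm, Var, sum_div]
    refine sum_le_sum fun S _ => ?_
    rw [← mul_sum]
    simp only [hc, sumV]
    split_ifs with h
    · simp [h, v0]
    · have a := (mm_bounds hL0 (hA S h)).2
      have b : ((VS star S).card : ℝ) / L ≤ 1 / 2 := by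
        rw [div_le_iff₀ (by exact_mod_cast hL0), hL]
        have : ((VS star S).card : ℝ) ≤ Fintype.card V := by exact_mod_cast card_le_univ _
        push_cast; linarith
      nlinarith [sq_nonneg (hat p f S)]
  have hB' : ∀ S, ∑ u, ((S ∩ star u).card : ℝ) ≤ r * S.card := fun S => by exact_mod_cast hB S
  have S1 : ∑ u, Ex p (vv p (star u) f) ≤ r * Inf p f := by
    simp only [Ex_vv h0 h1 hf]
    rw [sum_comm, Inf, mul_sum]
    refine sum_le_sum fun S _ => ?_
    rw [← mul_assoc]
    refine le_trans ?_ (mul_le_mul_of_nonneg_right (hB' S) (sq_nonneg _))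
    rw [sum_mul]
    refine sum_le_sum fun u _ => ?_
    split_ifs with h
    · positivity
    · refine le_mul_of_one_le_left (sq_nonneg _) ?_
      exact_mod_cast card_pos.2 (not_disjoint_iff_nonempty_inter.1 h)
  have S2 : ∀ c' : V → Finset ι → ℝ, (∀ u S, c' u S ^ 2 ≤ c u S ^ 2) →
      ∑ u, Ex p (Av p (star u) fun x => syn p (c' u) x ^ 2) ≤ Var p f := fun c' h => by
    simp only [Ex_Av, Ex_syn_sq h0 h1]
    rw [sum_comm, Var]
    refine sum_le_sum fun S _ => (sum_le_sum fun u _ => h u S).trans ?_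
    simp only [hc, ite_pow, mul_pow, ne_eq, OfNat.ofNat_ne_zero, not_false_eq_true, zero_pow, sumV]
    split_ifs with h
    · simp [h, v0]
    · rw [← mul_assoc]
      refine mul_le_of_le_one_left (sq_nonneg _) ((mle _ (hA S h)).trans ?_)
      rw [div_le_one (by exact_mod_cast hA S h)]; exact_mod_cast hA S h
  have S3 : ∑ u, Ex p (Av p (star u) fun x =>
      syn p (fun S => if d < (S ∩ star u).card then hat p f S else 0) x ^ 2) ≤ r * Inf p f / d := by
    simp only [Ex_Av, Ex_syn_sq h0 h1]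
    rw [sum_comm, Inf, mul_sum, le_div_iff₀ (by exact_mod_cast hd), sum_mul]
    refine sum_le_sum fun S _ => ?_
    rw [← mul_assoc]
    refine le_trans ?_ (mul_le_mul_of_nonneg_right (hB' S) (sq_nonneg _))
    rw [sum_mul, sum_mul]
    refine sum_le_sum fun u _ => ?_
    split_ifs with h
    · rw [mul_comm]; gcongr
    · simp only [ne_eq, OfNat.ofNat_ne_zero, not_false_eq_true, zero_pow, zero_mul]; positivity
  have S4 : ∑ u, Ex p (Av p (star u) fun x =>
      syn p (fun S => if d < (S ∩ star u).card then c u S else 0) x ^ 2) ≤ Var p f / s := by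
    simp only [Ex_Av, Ex_syn_sq h0 h1]
    rw [sum_comm, Var, sum_div]
    refine sum_le_sum fun S _ => ?_
    by_cases h : ∃ u, d < (S ∩ star u).card
    · obtain ⟨u, hu⟩ := h
      have hS : S ≠ ∅ := by rintro rfl; simp at hu
      refine (sum_le_sum fun u _ => show _ ≤ c u S ^ 2 by split_ifs <;> simp [sq_nonneg]).trans ?_
      simp only [hc, ite_pow, mul_pow, ne_eq, OfNat.ofNat_ne_zero, not_false_eq_true, zero_pow,
        sumV, if_neg hS]
      rw [← mul_assoc, div_eq_inv_mul, ← one_div]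
      refine mul_le_mul_of_nonneg_right ((mle _ (hA S hS)).trans ?_) (sq_nonneg _)
      have := hC S u hu
      gcongr
    · push Not at h
      rw [sum_eq_zero fun u _ => by rw [if_neg (not_lt.2 (h u))]; simp]
      split_ifs <;> positivity
  have S5 : ∑ u, Ex p (fun x => al p star f τ M u x * vv p (star u) f x) ≤
      32 / 5 * M / Fintype.card V * (r * Inf p f) := by
    have := X_bound star h0 h1 hf hτ hM.le hn hs
    rw [div_mul_eq_mul_div, le_div_iff₀ hV']
    nlinarith
  have S6 : ∑ u, Ex p (fun x => (l2 / 8 + Av p (star u) (fun x => syn p (c u) x ^ 2) x / (2 * l2)) *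
      th p star f τ M u x) ≤ 4 / (τ * M) * (r * Inf p f) * (Fintype.card V * l2 / 8 +
        (∑ k ∈ range L, 1 / ((k + 1 : ℕ) : ℝ)) / (2 * l2)) := by
    have a : ∀ u, Ex p (fun x => (l2 / 8 + Av p (star u) (fun x => syn p (c u) x ^ 2) x / (2 * l2)) *
        th p star f τ M u x) = Ex p (fun x => (l2 / 8 +
          Av p (star u) (fun x => syn p (c u) x ^ 2) x / (2 * l2)) * Bd p star f τ M x) := fun u =>
      (Ex_inv_mul (T := star u) (fun x ω => by rw [Av_inv]) _).symm
    simp only [a]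
    have b := (Bd_bound star h0 h1 hf hτ hM).trans (mul_le_mul_of_nonneg_left S1 (by positivity))
    refine le_trans ?_ (mul_le_mul_of_nonneg_right b (by positivity))
    rw [← Ex_sum, ← Ex_mul']
    refine Ex_mono h0.le h1.le fun x => ?_
    rw [← sum_mul, mul_comm, sum_add_distrib, sum_const, card_univ, nsmul_eq_mul, ← sum_div,
      mul_div_assoc]
    have e := gg_grad star h0 h1 (f := f) (fun x => by rcases hf x with h | h <;> simp [h]) hL0 x
    simp only [hg] at e
    have : 0 ≤ Bd p star f τ M x := by unfold Bd; split_ifs <;> norm_num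
    gcongr
  -- pointwise
  have P : ∀ u x, Av p (star u) (fun x => f x * syn p (c u) x) x ≤ ε / 2 * (vv p (star u) f x +
      Av p (star u) (fun x => syn p (fun S => if d < (S ∩ star u).card then 0 else c u S) x ^ 2) x) +
      (l / 2 * Av p (star u)
        (fun x => syn p (fun S => if d < (S ∩ star u).card then hat p f S else 0) x ^ 2) x +
        Av p (star u) (fun x => syn p (fun S => if d < (S ∩ star u).card then c u S else 0) x ^ 2) x
          * (2 * l)⁻¹) + (4 * (al p star f τ M u x * vv p (star u) f x) +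
        Av p (star u) (fun x => syn p (c u) x ^ 2) x * 16⁻¹) +
      8 / τ * ((l2 / 8 + Av p (star u) (fun x => syn p (c u) x ^ 2) x / (2 * l2)) *
        th p star f τ M u x) := by
    intro u x
    have nn : ∀ g : (ι → Bool) → ℝ, 0 ≤ Av p (star u) (fun x => g x ^ 2) x := fun g =>
      Av_nonneg h0.le h1.le _ (fun x => sq_nonneg _) x
    have vb := vv_bd h0 h1 hf (star u) x
    have v1 := vb.1
    have t0 : 0 ≤ th p star f τ M u x :=
      Av_nonneg h0.le h1.le _ (fun x => by unfold Bd; split_ifs <;> norm_num) x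
    have a0 : 0 ≤ al p star f τ M u x := by unfold al; split_ifs <;> norm_num
    have z : Av p (star u) (syn p (c u)) x = 0 := by
      rw [Av_syn h0 h1, syn]
      refine sum_eq_zero fun S _ => ?_
      split_ifs with a <;> simp
      exact Or.inl (hcz u S a)
    have cs := cov_sq h0 h1 hf (star u) _ x z
    have n1 := nn (syn p fun S => if d < (S ∩ star u).card then 0 else c u S)
    have n2 := nn (syn p fun S => if d < (S ∩ star u).card then hat p f S else 0)
    have n3 := nn (syn p fun S => if d < (S ∩ star u).card then c u S else 0)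
    have n4 := nn (syn p (c u))
    by_cases c1 : vv p (star u) f x < τ
    · have := pt_bound h0 h1 hf (star u) (c u) (hcz u) d hε0 hl hε x c1
      rw [div_eq_mul_inv _ (2 * l)] at this
      refine this.trans ?_
      rw [add_assoc _ (_ + _ * 16⁻¹)]
      exact le_add_of_nonneg_right (by positivity)
    · rw [add_assoc _ (_ + _ * 16⁻¹)]
      refine le_trans ?_ (le_add_of_nonneg_left (by positivity))
      by_cases c2 : th p star f τ M u x < τ / 8
      · have := amgm (l := 8) (by norm_num) v1 n4 cs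
        rw [al, if_pos ⟨not_lt.1 c1, c2⟩]
        refine le_trans ?_ (le_add_of_nonneg_right (by positivity))
        linarith
      · refine le_trans ?_ (le_add_of_nonneg_left (by positivity))
        have := amgm hl2 v1 n4 cs
        have b : 1 ≤ 8 / τ * th p star f τ M u x := by
          rw [div_mul_eq_mul_div, le_div_iff₀ hτ]; linarith
        rw [mul_left_comm]
        refine le_trans ?_ (le_mul_of_one_le_right (by positivity) b)
        have := mul_le_mul_of_nonneg_left vb.2 hl2.le
        linarith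
  have Q := sum_le_sum fun u (_ : u ∈ univ) => Ex_mono h0.le h1.le (P u)
  simp only [Ex_add, Ex_mul, Ex_mul', sum_add_distrib, ← mul_sum, ← sum_mul] at Q
  refine S0.trans (Q.trans ?_)
  have T2 := S2 (fun u S => if d < (S ∩ star u).card then 0 else c u S)
    fun u S => by split_ifs <;> simp [sq_nonneg]
  have T3 := S2 c fun _ _ => le_rfl
  rw [div_eq_mul_inv _ (2 * l), div_eq_mul_inv _ (16 : ℝ)]
  gcongr

end Vale.Agent.P063
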