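import Mathlib

namespace Vale.Agent.P063

/-- The `r`-element subsets of `[n]`. -/
abbrev Edge (n r : ℕ) : Type := {e : Finset (Fin n) // e.card = r}

/-- The hypergraph obtained from `x` by relabelling the vertices along `σ`. -/
def relabel {n r : ℕ} (σ : Equiv.Perm (Fin n)) (x : Edge n r → Bool) : Edge n r → Bool :=
  fun e => x ⟨e.1.map σ.toEmbedding, (Finset.card_map _).trans e.2⟩

/-- Invariance under all permutations of the vertices. -/
def IsProperty {n r : ℕ} (P : Set (Edge n r → Bool)) : Prop :=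
  ∀ (σ : Equiv.Perm (Fin n)) (x : Edge n r → Bool), x ∈ P → relabel σ x ∈ P

/-- Adding edges preserves membership. -/
def Increasing {n r : ℕ} (P : Set (Edge n r → Bool)) : Prop :=
  ∀ x y : Edge n r → Bool, x ∈ P → (∀ e, x e = true → y e = true) → y ∈ P

/-- Probability that the binomial random hypergraph lies in `P`. -/
noncomputable def mu {n r : ℕ} (P : Set (Edge n r → Bool)) (p : ℝ) : ℝ :=
  ∑ x : Edge n r → Bool, P.indicator (fun x => ∏ e : Edge n r, if x e = true then p else 1 - p) x

/-- `p_a(P)`. -/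
noncomputable def pa {n r : ℕ} (P : Set (Edge n r → Bool)) (a : ℝ) : ℝ :=
  sInf {p : ℝ | p ∈ Set.Icc (0 : ℝ) 1 ∧ a ≤ mu P p}

/-- The threshold width. -/
noncomputable def width {n r : ℕ} (P : Set (Edge n r → Bool)) (ε : ℝ) : ℝ :=
  pa P (1 - ε) - pa P ε

end Vale.Agent.P063
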