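import Vale.Agent.P063.Core
import Vale.Agent.P063.Defs

namespace Vale.Agent.P063
open Finset

section gen
variable {ι : Type} [Fintype ι] [DecidableEq ι] {p : ℝ}
variable {V : Type} [Fintype V] [DecidableEq V] (star : V → Finset ι)

theorem infl (h0 : 0 < p) (h1 : p < 1) {f : (ι → Bool) → ℝ} (hf : ∀ x, f x = 0 ∨ f x = 1)
    (r s : ℕ) (hr : 2 ≤ r) (hs0 : 0 < s) {κ : ℝ} (hκ : 100 ≤ κ) (hn : κ ^ 64 = Fintype.card V)
    (hd : (16 / (p * (1 - p))) ^ (s ^ (r - 1)) ≤ κ ^ 4)
    (hA : ∀ S, S ≠ ∅ → 0 < (VS star S).card)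
    (hB : ∀ S, ∑ u, (S ∩ star u).card ≤ r * S.card)
    (hC : ∀ S u, s ^ (r - 1) < (S ∩ star u).card → s ≤ (VS star S).card)
    (hs : ∀ u u' (Φ : ℝ → ℝ) x, Av p (star u') (fun x => Φ (Av p (star u) f x)) x =
      Av p (star u) (fun x => Φ (Av p (star u') f x)) x) :
    Var p f * s ^ r ≤ 64 * (r * Inf p f) := by
  have hκ0 : 0 < κ := by linarith
  have hq : 0 < 1 - p := by linarith
  have hV : 0 < Fintype.card V := by
    have : (0 : ℝ) < Fintype.card V := by rw [← hn]; positivity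
    exact_mod_cast this
  have hs' : (0 : ℝ) < s := by exact_mod_cast hs0
  have c := core star h0 h1 hf r (s ^ (r - 1)) s (τ := 1 / κ ^ 12) (M := κ ^ 60) (ε := 2 / κ ^ 2)
    (l := 8 / s) (l2 := 1 / κ ^ 32) (by positivity) (by positivity) (by positivity) (by positivity)
    (by positivity) (by positivity) hs0 hV ?_ ?_ hA hB hC hs
  · by_contra hc
    push Not at hc
    have hH : ∑ k ∈ range (2 * Fintype.card V), 1 / ((k + 1 : ℕ) : ℝ) ≤ 66 * κ := by
      have a := harmonic_le_one_add_log (2 * Fintype.card V)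
      simp only [harmonic, Rat.cast_sum, Rat.cast_inv, Rat.cast_natCast] at a
      simp only [one_div]
      refine a.trans ?_
      push_cast
      rw [← hn, Real.log_mul (by norm_num) (by positivity), Real.log_pow]
      have := Real.log_le_sub_one_of_pos hκ0
      have := Real.log_le_sub_one_of_pos (show (0 : ℝ) < 2 by norm_num)
      push_cast; linarith
    have hsr : (s : ℝ) ^ r ≤ κ ^ 2 := by
      have a1 : (2 : ℝ) ^ (s ^ (r - 1)) ≤ κ := by
        refine le_of_pow_le_pow_left₀ (n := 4) (by norm_num) hκ0.le (le_trans ?_ hd)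
        rw [← pow_mul, mul_comm, pow_mul]
        refine pow_le_pow_left₀ (by norm_num) ?_ _
        rw [le_div_iff₀ (by positivity)]; nlinarith [sq_nonneg p]
      have a2 : ((s ^ (r - 1) : ℕ) : ℝ) ≤ 2 ^ (s ^ (r - 1)) := by
        exact_mod_cast Nat.lt_two_pow_self.le
      have a3 : s ^ r ≤ (s ^ (r - 1)) ^ 2 := by
        rw [← pow_mul]; exact Nat.pow_le_pow_right hs0 (by omega)
      calc (s : ℝ) ^ r ≤ ((s ^ (r - 1) : ℕ) : ℝ) ^ 2 := by exact_mod_cast a3
        _ ≤ _ := by gcongr; exact a2.trans a1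
    have hI : 0 ≤ r * Inf p f := mul_nonneg (Nat.cast_nonneg _) ((Var_nonneg f).trans (Var_le_Inf f))
    have hv := Var_nonneg (p := p) f
    rw [← hn] at c
    generalize ∑ k ∈ range (2 * Fintype.card V), 1 / ((k + 1 : ℕ) : ℝ) = H at c hH
    generalize (r : ℝ) * Inf p f = J at *
    generalize Var p f = W at *
    have hW : 0 < W := by
      rcases hv.eq_or_lt with h | h
      · rw [← h] at hc; linarith
      · exact h
    have hJ : J ≤ W * κ ^ 2 / 64 := by nlinarith
    have e0 : (s : ℝ) ^ r = s * ((s ^ (r - 1) : ℕ) : ℝ) := by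
      push_cast; rw [← pow_succ']; congr 1; omega
    have t1 : 2 / κ ^ 2 / 2 * (J + W) ≤ W / 64 + W / 10000 := by
      rw [show 2 / κ ^ 2 / 2 * (J + W) = J / κ ^ 2 + W / κ ^ 2 by ring]
      refine add_le_add ?_ (by gcongr; nlinarith)
      rw [div_le_iff₀ (by positivity)]; linarith
    have t2 : 8 / s / 2 * (J / ((s ^ (r - 1) : ℕ) : ℝ)) ≤ W / 16 := by
      have : (0 : ℝ) < ((s ^ (r - 1) : ℕ) : ℝ) := by positivity
      rw [show 8 / s / 2 * (J / ((s ^ (r - 1) : ℕ) : ℝ)) = 4 * J / (s * ((s ^ (r - 1) : ℕ) : ℝ)) by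
        field_simp; ring, ← e0, div_le_iff₀ (by positivity)]
      linarith
    have t3 : W / s / (2 * (8 / s)) = W / 16 := by field_simp; ring
    have t4 : 4 * (32 / 5 * κ ^ 60 / κ ^ 64 * J) ≤ W / 100 := by
      rw [show 4 * (32 / 5 * κ ^ 60 / κ ^ 64 * J) = 128 / 5 * J / κ ^ 4 by field_simp; ring,
        div_le_iff₀ (by positivity)]
      have : 100 * (W * κ ^ 2) ≤ W * κ ^ 2 * κ ^ 2 := by
        rw [mul_comm]; gcongr; nlinarith
      nlinarith
    have t5 : 8 / (1 / κ ^ 12) * (4 / (1 / κ ^ 12 * κ ^ 60) * J * (κ ^ 64 * (1 / κ ^ 32) / 8 +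
        H / (2 * (1 / κ ^ 32)))) ≤ 17 / 100 * W := by
      rw [show 8 / (1 / κ ^ 12) * (4 / (1 / κ ^ 12 * κ ^ 60) * J * (κ ^ 64 * (1 / κ ^ 32) / 8 +
        H / (2 * (1 / κ ^ 32)))) = J * (4 + 16 * H) / κ ^ 4 by field_simp; ring,
        div_le_iff₀ (by positivity)]
      calc J * (4 + 16 * H) ≤ J * (1088 * κ) := by gcongr; linarith
        _ ≤ W * κ ^ 2 / 64 * (1088 * κ) := by gcongr
        _ = 17 / 100 * W * κ ^ 3 * 100 := by ring
        _ ≤ 17 / 100 * W * κ ^ 3 * κ := by gcongr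
        _ = _ := by ring
    rw [t3] at c
    linarith
  · calc _ ≤ 8 * (1 / κ ^ 12) * κ ^ 4 := by gcongr
      _ = 8 / κ ^ 8 := by field_simp
      _ ≤ 16 / κ ^ 8 := by gcongr; norm_num
      _ = _ := by field_simp; norm_num
  · rw [← hn, show κ ^ 64 * (1 / κ ^ 12) / 8 = κ ^ 52 / 8 by field_simp]
    have a : κ ^ 52 ≤ κ ^ 64 := pow_le_pow_right₀ (by linarith) (by norm_num)
    have b : κ ^ 60 * 4 ≤ κ ^ 60 * κ ^ 4 := by
      gcongr
      calc (4 : ℝ) ≤ 100 ^ 4 := by norm_num
        _ ≤ _ := by gcongr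
    have : κ ^ 60 * κ ^ 4 = κ ^ 64 := by ring
    linarith

lemma Var_eq (h0 : 0 < p) (h1 : p < 1) {f : (ι → Bool) → ℝ} (hf : ∀ x, f x = 0 ∨ f x = 1) :
    Var p f = Ex p f * (1 - Ex p f) := by
  have := Ex_vv h0 h1 hf univ
  unfold vv at this
  have e : ∀ S : Finset ι, Disjoint S univ ↔ S = ∅ := fun S => disjoint_top
  simp only [Av_univ, Ex_const, e] at this
  exact this.symm

noncomputable def dEx (f : (ι → Bool) → ℝ) (p : ℝ) : ℝ :=
  ∑ x : ι → Bool, (∑ e, (∏ e' ∈ univ.erase e, if x e' then p else 1 - p) *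
    (if x e then 1 else -1)) * f x

lemma hasDeriv_Ex (f : (ι → Bool) → ℝ) (p : ℝ) : HasDerivAt (fun p => Ex p f) (dEx f p) p := by
  unfold Ex dEx wt
  refine HasDerivAt.fun_sum fun x _ => HasDerivAt.mul_const ?_ _
  refine HasDerivAt.fun_finsetProd (f := fun e p => if x e then p else 1 - p) fun e _ => ?_
  split_ifs
  · exact hasDerivAt_id p
  · exact (hasDerivAt_id p).const_sub 1

lemma russo (h0 : 0 < p) (h1 : p < 1) {f : (ι → Bool) → ℝ} (hf : ∀ x, f x = 0 ∨ f x = 1)
    (hm : ∀ x e, f (Function.update x e false) ≤ f (Function.update x e true)) :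
    Inf p f = p * (1 - p) * dEx f p := by
  have a : Inf p f = ∑ e, Ex p (vv p {e} f) := by
    simp only [Ex_vv h0 h1 hf, disjoint_singleton_right, ite_not]
    rw [sum_comm]
    exact sum_congr rfl fun S _ => by rw [sum_ite_mem, univ_inter, sum_const, nsmul_eq_mul]
  have b : ∀ e, Ex p (vv p {e} f) = Ex p fun x => f x * ((if x e then 1 else 0) - p) := fun e => by
    rw [← Ex_Av {e} (fun x => f x * _)]
    congr 1; funext x
    have := hm x e
    simp only [vv, Av_single, Function.update_self]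
    rcases hf (Function.update x e false) with h | h <;>
      rcases hf (Function.update x e true) with h' | h' <;> rw [h, h'] at this ⊢ <;> simp <;>
      first | ring1 | linarith
  simp only [a, b, ← Ex_sum]
  rw [Ex, dEx, mul_sum]
  refine sum_congr rfl fun x _ => ?_
  rw [mul_sum, sum_mul, mul_sum]
  refine sum_congr rfl fun e _ => ?_
  rw [wt, ← mul_prod_erase _ _ (mem_univ e)]
  split_ifs <;> ring

end gen

def star (n r : ℕ) (u : Fin n) : Finset (Edge n r) := univ.filter fun e => u ∈ e.1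

def ePerm {n : ℕ} (r : ℕ) (σ : Equiv.Perm (Fin n)) : Equiv.Perm (Edge n r) :=
  σ.finsetCongr.subtypeEquiv fun e => by simp

open Classical in
noncomputable def ind {n r : ℕ} (P : Set (Edge n r → Bool)) (x : Edge n r → Bool) : ℝ :=
  if x ∈ P then 1 else 0

variable {n r : ℕ} {P : Set (Edge n r → Bool)}

lemma ind_bool (x) : ind P x = 0 ∨ ind P x = 1 := by unfold ind; split_ifs <;> simp

lemma mu_eq (p : ℝ) : mu P p = Ex p (ind P) := by
  unfold mu Ex ind wt
  exact sum_congr rfl fun x _ => by by_cases h : x ∈ P <;> simp [h]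

lemma ind_mono (hI : Increasing P) (x e) :
    ind P (Function.update x e false) ≤ ind P (Function.update x e true) := by
  unfold ind
  split_ifs with a b
  · rfl
  · refine absurd (hI _ _ a fun e' h => ?_) b
    by_cases he : e' = e
    · subst he; simp
    · simpa [Function.update_of_ne he] using h
  · norm_num
  · rfl

lemma deriv_lb (hr : 2 ≤ r) (hn : (100 : ℝ) ^ 64 ≤ n) (hP : IsProperty P) (hI : Increasing P)
    {p : ℝ} (h0 : 0 < p) (h1 : p < 1) :
    mu P p * (1 - mu P p) * Real.log n ^ ((r : ℝ) / (r - 1)) ≤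
      2 ^ r * 64 * r * 16384 * dEx (ind P) p := by
  have hq : 0 < 1 - p := by linarith
  have hn0 : (0 : ℝ) < n := lt_of_lt_of_le (by positivity) hn
  have hL : 0 ≤ Real.log n := Real.log_natCast_nonneg n
  obtain ⟨q, hqe⟩ : ∃ q, q = 16 / (p * (1 - p)) := ⟨_, rfl⟩
  have q1 : 16 ≤ q := by rw [hqe, le_div_iff₀ (by positivity)]; nlinarith [sq_nonneg p]
  have l1 : 1 / 2 ≤ Real.log q := by
    have := Real.one_sub_inv_le_log_of_pos (show 0 < q by linarith)
    have : q⁻¹ ≤ 1 / 2 := by rw [inv_le_comm₀ (by linarith) (by norm_num)]; linarith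
    linarith
  have l2 : Real.log q ^ 2 ≤ 4 * q := by
    have a := Real.log_le_sub_one_of_pos (Real.sqrt_pos.2 (show 0 < q by linarith))
    rw [Real.log_sqrt (by linarith)] at a
    have b := Real.sq_sqrt (show 0 ≤ q by linarith)
    nlinarith
  have hr1 : (1 : ℝ) ≤ r - 1 := by
    have : (2 : ℝ) ≤ r := by exact_mod_cast hr
    linarith
  have hrc : ((r - 1 : ℕ) : ℝ) = r - 1 := by rw [Nat.cast_sub (by omega)]; simp
  obtain ⟨y, hy⟩ : ∃ y, y = Real.log n / (16 * Real.log q) := ⟨_, rfl⟩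
  have y0 : 0 ≤ y := by rw [hy]; positivity
  obtain ⟨t, ht⟩ : ∃ t, t = y ^ (((r - 1 : ℕ) : ℝ)⁻¹) := ⟨_, rfl⟩
  have t0 : 0 ≤ t := by rw [ht]; positivity
  have t1 : t ^ (r - 1) = y := by rw [ht]; exact Real.rpow_inv_natCast_pow y0 (by omega)
  have t2 : t ^ r = y ^ ((r : ℝ) / (r - 1)) := by
    rw [ht, ← Real.rpow_natCast, ← Real.rpow_mul y0, hrc]; congr 1; field_simp
  have hv := Var_nonneg (p := p) (ind P)
  have hvi := Var_le_Inf (p := p) (ind P)
  have key : Var p (ind P) * (t / 2) ^ r ≤ 64 * (r * Inf p (ind P)) := by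
    rcases le_total t 1 with h | h
    · have : (t / 2) ^ r ≤ 1 := pow_le_one₀ (by positivity) (by linarith)
      nlinarith
    · have s0 : 0 < ⌊t⌋₊ := Nat.floor_pos.2 h
      have s1 : (⌊t⌋₊ : ℝ) ≤ t := Nat.floor_le t0
      have s2 := Nat.lt_floor_add_one t
      have s3 : (1 : ℝ) ≤ ⌊t⌋₊ := by exact_mod_cast s0
      refine le_trans (by gcongr; linarith) (infl (star n r) h0 h1 ind_bool r ⌊t⌋₊ hr s0
        (κ := (n : ℝ) ^ (((64 : ℕ) : ℝ)⁻¹)) ?_ ?_ ?_ ?_ ?_ ?_ ?_)
      · refine le_of_pow_le_pow_left₀ (n := 64) (by norm_num) (by positivity) ?_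
        rw [Real.rpow_inv_natCast_pow hn0.le (by norm_num)]; exact hn
      · rw [Real.rpow_inv_natCast_pow hn0.le (by norm_num), Fintype.card_fin]
      · rw [← hqe, ← Real.log_le_log_iff (by positivity) (by positivity), Real.log_pow, Real.log_pow,
          Real.log_rpow hn0]
        have a : ((⌊t⌋₊ ^ (r - 1) : ℕ) : ℝ) ≤ y := by
          rw [← t1]; push_cast; gcongr
        rw [hy, le_div_iff₀ (by positivity)] at a
        push_cast at a ⊢
        linarith
      · intro S hS
        obtain ⟨e, he⟩ := nonempty_iff_ne_empty.2 hS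
        obtain ⟨u, hu⟩ : e.1.Nonempty := card_pos.1 (by rw [e.2]; omega)
        exact card_pos.2 ⟨u, by
          simp only [VS, mem_filter, mem_univ, true_and, not_disjoint_iff]
          exact ⟨e, he, by simp [star, hu]⟩⟩
      · intro S
        have : ∀ u, (S ∩ star n r u).card = ∑ e ∈ S, if u ∈ e.1 then 1 else 0 := fun u => by
          rw [← card_filter]; congr 1; ext e; simp [star]
        simp only [this]
        rw [sum_comm, mul_comm, ← smul_eq_mul, ← sum_const]
        exact le_of_eq (sum_congr rfl fun e _ => by simp [e.2])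
      · intro S u hu
        have a : (S ∩ star n r u).card ≤ (powersetCard (r - 1) (VS (star n r) S)).card := by
          refine card_le_card_of_injOn (fun e => e.1.erase u) (fun e he => ?_) fun e he e' he' h => ?_
          · simp only [coe_inter, Set.mem_inter_iff, mem_coe, star, mem_filter, mem_univ,
              true_and] at he
            simp only [mem_coe, mem_powersetCard]
            refine ⟨fun w hw => ?_, by rw [card_erase_of_mem he.2, e.2]⟩
            simp only [VS, mem_filter, mem_univ, true_and, not_disjoint_iff]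
            exact ⟨e, he.1, by simp [star, mem_of_mem_erase hw]⟩
          · simp only [coe_inter, Set.mem_inter_iff, mem_coe, star, mem_filter, mem_univ,
              true_and] at he he'
            exact Subtype.ext (by rw [← insert_erase he.2, ← insert_erase he'.2]; exact congrArg _ h)
        rw [card_powersetCard] at a
        exact (lt_of_pow_lt_pow_left₀ _ (Nat.zero_le _)
          (hu.trans_le (a.trans (Nat.choose_le_pow _ _)))).le
      · intro u u' Φ x
        have m : ∀ (e : Edge n r) w, w ∈ (ePerm r (Equiv.swap u u') e).1 ↔ Equiv.swap u u' w ∈ e.1 :=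
          fun e w => by simp [ePerm]
        refine sym_av (ePerm r (Equiv.swap u u')) (fun x => ?_) (fun e => ?_) (fun e => ?_)
          (fun e a b => ?_) Φ x
        · have k : relabel (Equiv.swap u u') (relabel (Equiv.swap u u') x) = x := by
            funext e
            refine congrArg x (Subtype.ext ?_)
            ext w; simp
          have : relabel (Equiv.swap u u') x ∈ P ↔ x ∈ P :=
            ⟨fun h => k ▸ hP (Equiv.swap u u') _ h, hP _ _⟩
          change ind P (relabel (Equiv.swap u u') x) = _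
          unfold ind
          by_cases hx : x ∈ P
          · rw [if_pos hx, if_pos (this.2 hx)]
          · rw [if_neg hx, if_neg fun h => hx (this.1 h)]
        · simp [star, m]
        · simp [star, m]
        · simp only [star, mem_filter, mem_univ, true_and] at a b
          refine Subtype.ext (Finset.ext fun w => ?_)
          rw [m, Equiv.swap_apply_def]
          split_ifs with c1 c2
          · simp [c1, a, b]
          · simp [c2, a, b]
          · rfl
  rw [russo h0 h1 ind_bool (ind_mono hI), Var_eq h0 h1 ind_bool, ← mu_eq, div_pow, t2] at key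
  rw [Var_eq h0 h1 ind_bool, ← mu_eq] at hv
  have b1 : Real.log n ^ ((r : ℝ) / (r - 1)) ≤ y ^ ((r : ℝ) / (r - 1)) * (16384 / (p * (1 - p))) := by
    have e : Real.log n = y * (16 * Real.log q) := by rw [hy]; field_simp
    rw [e, Real.mul_rpow y0 (by positivity)]
    refine mul_le_mul_of_nonneg_left ?_ (by positivity)
    calc _ ≤ (16 * Real.log q) ^ (2 : ℝ) := Real.rpow_le_rpow_of_exponent_le (by linarith)
          (by rw [div_le_iff₀ (by linarith)]; linarith)
      _ = 256 * Real.log q ^ 2 := by rw [Real.rpow_two]; ring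
      _ ≤ 256 * (4 * q) := by gcongr
      _ = _ := by rw [hqe]; ring
  refine (mul_le_mul_of_nonneg_left b1 hv).trans ?_
  rw [← mul_div_assoc, div_le_iff₀ (by positivity)] at key
  rw [← mul_assoc, ← mul_div_assoc, div_le_iff₀ (by positivity)]
  linarith

lemma mu_bd {p : ℝ} (h0 : 0 ≤ p) (h1 : p ≤ 1) : 0 ≤ mu P p ∧ mu P p ≤ 1 := by
  rw [mu_eq]
  exact ⟨Ex_nonneg h0 h1 fun x => by rcases ind_bool (P := P) x with h | h <;> simp [h],
    Ex_le h0 h1 fun x => by rcases ind_bool (P := P) x with h | h <;> simp [h]⟩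

lemma mu_one (hI : Increasing P) (hne : P.Nonempty) : mu P 1 = 1 := by
  obtain ⟨x, hx⟩ := hne
  have : (fun _ => true) ∈ P := hI x _ hx fun _ _ => rfl
  rw [mu_eq, Ex, sum_eq_single (fun _ => true)]
  · simp [wt, ind, this]
  · intro y _ hy
    obtain ⟨e, he⟩ := Function.ne_iff.1 hy
    rw [wt, prod_eq_zero (mem_univ e) (by simp [he]), zero_mul]
  · simp

lemma mu_mono (hI : Increasing P) : MonotoneOn (mu P) (Set.Icc 0 1) := by
  have e : mu P = fun p => Ex p (ind P) := funext mu_eq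
  rw [e]
  refine monotoneOn_of_deriv_nonneg (convex_Icc 0 1)
    (fun p _ => (hasDeriv_Ex _ p).continuousAt.continuousWithinAt)
    (fun p _ => (hasDeriv_Ex _ p).differentiableAt.differentiableWithinAt) fun p hp => ?_
  rw [interior_Icc] at hp
  rw [(hasDeriv_Ex _ p).deriv]
  have a := (Var_nonneg (p := p) (ind P)).trans (Var_le_Inf _)
  rw [russo hp.1 hp.2 ind_bool (ind_mono hI)] at a
  exact nonneg_of_mul_nonneg_right a (mul_pos hp.1 (by linarith [hp.2])) |> fun h => h

theorem main (r : ℕ) (hr : 2 ≤ r) (ε : ℝ) (h0 : 0 < ε) (h1 : ε < 1 / 2) : ∃ C : ℝ, ∀ n ≥ r,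
    ∀ P : Set (Edge n r → Bool), IsProperty P → Increasing P → P.Nonempty →
      width P ε ≤ C * Real.log n ^ (-((r : ℝ) / (r - 1))) := by
  obtain ⟨α, hα⟩ : ∃ α : ℝ, α = (r : ℝ) / (r - 1) := ⟨_, rfl⟩
  have hr' : (2 : ℝ) ≤ r := by exact_mod_cast hr
  have α0 : 0 ≤ α := by rw [hα]; exact div_nonneg (by linarith) (by linarith)
  have c0 : 0 ≤ Real.log (100 ^ 64) ^ α := Real.rpow_nonneg (Real.log_nonneg (by norm_num)) _
  refine ⟨Real.log (100 ^ 64) ^ α + 2 ^ r * 64 * r * 16384 * 2 / ε, fun n hn P hP hI hne => ?_⟩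
  rw [← hα]
  have hL : 0 < Real.log n := Real.log_pos (by exact_mod_cast (by omega : 1 < n))
  rw [Real.rpow_neg hL.le, ← div_eq_mul_inv, le_div_iff₀ (by positivity)]
  have ne : ∀ a ≤ 1, (1 : ℝ) ∈ {p : ℝ | p ∈ Set.Icc (0 : ℝ) 1 ∧ a ≤ mu P p} := fun a ha =>
    ⟨⟨zero_le_one, le_rfl⟩, by rw [mu_one hI hne]; exact ha⟩
  have bd : ∀ a, BddBelow {p : ℝ | p ∈ Set.Icc (0 : ℝ) 1 ∧ a ≤ mu P p} := fun a =>
    ⟨0, fun p hp => hp.1.1⟩
  have a0 : 0 ≤ pa P ε := le_csInf ⟨1, ne ε (by linarith)⟩ fun p hp => hp.1.1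
  have b1 : pa P (1 - ε) ≤ 1 := csInf_le (bd _) (ne _ (by linarith))
  have pL : 0 < Real.log n ^ α := by positivity
  rcases le_or_gt (pa P (1 - ε)) (pa P ε) with hab | hab
  · refine (mul_nonpos_of_nonpos_of_nonneg (sub_nonpos.2 hab) pL.le).trans (by positivity)
  rcases le_total (n : ℝ) (100 ^ 64) with hs | hs
  · refine le_trans ?_ (le_add_of_nonneg_right (by positivity))
    refine (mul_le_of_le_one_left pL.le (by unfold width; linarith)).trans ?_
    exact Real.rpow_le_rpow hL.le (Real.log_le_log (by exact_mod_cast (by omega : 0 < n)) hs) α0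
  refine le_trans ?_ (le_add_of_nonneg_left c0)
  obtain ⟨ξ, hξ, hsl⟩ := exists_hasDerivAt_eq_slope (fun p => Ex p (ind P)) (dEx (ind P)) hab
    (fun p _ => (hasDeriv_Ex _ p).continuousAt.continuousWithinAt) fun p _ => hasDeriv_Ex _ p
  have x0 : 0 < ξ := a0.trans_lt hξ.1
  have x1 : ξ < 1 := hξ.2.trans_le b1
  have m1 : ε ≤ mu P ξ := by
    obtain ⟨p', hp', hlt⟩ := exists_lt_of_csInf_lt ⟨1, ne ε (by linarith)⟩ hξ.1
    exact hp'.2.trans (mu_mono hI hp'.1 ⟨x0.le, x1.le⟩ hlt.le)
  have m2 : mu P ξ < 1 - ε := by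
    by_contra h
    exact absurd (csInf_le (bd _) ⟨⟨x0.le, x1.le⟩, not_lt.1 h⟩) (not_le.2 hξ.2)
  have d := deriv_lb hr hs hP hI x0 x1
  rw [← hα, hsl, ← mu_eq, ← mu_eq, ← mul_div_assoc, le_div_iff₀ (sub_pos.2 hab)] at d
  have u1 := (mu_bd (P := P) (a0.trans hab.le) b1).2
  have u2 := (mu_bd (P := P) a0 (hab.le.trans b1)).1
  have v : ε / 2 ≤ mu P ξ * (1 - mu P ξ) := by nlinarith
  rw [le_div_iff₀ h0]
  unfold width
  have w : 0 < pa P (1 - ε) - pa P ε := sub_pos.2 hab
  have z : ε / 2 * Real.log n ^ α * (pa P (1 - ε) - pa P ε) ≤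
      mu P ξ * (1 - mu P ξ) * Real.log n ^ α * (pa P (1 - ε) - pa P ε) := by gcongr
  have z2 : (2 : ℝ) ^ r * 64 * r * 16384 * (mu P (pa P (1 - ε)) - mu P (pa P ε)) ≤
      2 ^ r * 64 * r * 16384 * 1 := by gcongr; linarith
  linarith

end Vale.Agent.P063
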