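import Vale.Agent.P063.Bonami

namespace Vale.Agent.P063
open Finset

variable {ι : Type} [Fintype ι] [DecidableEq ι] {p : ℝ}
variable {V : Type} [Fintype V] [DecidableEq V] (star : V → Finset ι)

lemma Inv.congr {T : Finset ι} {G : (ι → Bool) → ℝ} (h : Inv T G) {x y : ι → Bool}
    (e : ∀ e, e ∉ T → x e = y e) : G x = G y := by
  rw [← h y x]; congr 1; funext a; by_cases ha : a ∈ T <;> simp [mix, ha, e]

lemma Inv.mono {T T' : Finset ι} {G : (ι → Bool) → ℝ} (h : Inv T G) (hT : T' ⊆ T) : Inv T' G :=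
  fun x ω => h.congr fun e he => by simp [mix, show e ∉ T' from fun a => he (hT a)]

lemma Inv.av_eq {T : Finset ι} {G : (ι → Bool) → ℝ} (h : Inv T G) : P063.Av p T G = G := by
  funext x; simp only [P063.Av, h x, Ex_const]

def VS (S : Finset ι) : Finset V := univ.filter fun u => ¬ Disjoint S (star u)

def St (W : Finset V) : Finset ι := W.biUnion star

def US (ξ : V → Bool) : Finset V := univ.filter fun u => ξ u = true

lemma disj_St (S : Finset ι) (W : Finset V) :
    Disjoint S (St star W) ↔ ∀ u ∈ W, u ∉ VS star S := by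
  simp [St, VS, disjoint_biUnion_right]

def DD (p : ℝ) (f : (ι → Bool) → ℝ) (u : V) (W : Finset V) (x : ι → Bool) : ℝ :=
  Av p (St star (W.erase u)) f x - Av p (St star (insert u W)) f x

lemma DD_syn (h0 : 0 < p) (h1 : p < 1) (c : Finset ι → ℝ) (u : V) (W : Finset V) (x) :
    DD star p (syn p c) u W x =
      syn p (fun S => if u ∈ VS star S ∧ ∀ w ∈ (VS star S).erase u, w ∉ W then c S else 0) x := by
  rw [DD, Av_syn h0 h1, Av_syn h0 h1, ← syn_sub]
  congr 1; funext S
  simp only [disj_St, mem_erase, mem_insert, forall_eq_or_imp, and_imp]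
  by_cases a : u ∈ VS star S
  · simp only [a, not_true_eq_false, false_and, if_false, sub_zero, true_and]
    congr 1
    exact propext ⟨fun h w x y z => h w x z y, fun h w x y z => h w x z y⟩
  · simp only [a, not_false_eq_true, true_and, false_and, if_false]
    rw [sub_eq_zero]; congr 1
    exact propext ⟨fun h w x => by
      by_cases hw : w = u
      · rw [hw]; exact a
      · exact h w hw x, fun h w _ y => h w y⟩

lemma bessel (h0 : 0 < p) (h1 : p < 1) (F : (ι → Bool) → ℝ) (W : Finset V) :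
    ∑ u ∈ W, Ex p (fun x => DD star p F u W x ^ 2) ≤ Ex p fun x => F x ^ 2 := by
  rw [← syn_hat h0 h1 F]
  simp only [DD_syn star h0 h1, Ex_syn_sq h0 h1]
  rw [sum_comm]
  refine sum_le_sum fun S _ => ?_
  by_cases h : ∃ u ∈ W, u ∈ VS star S ∧ ∀ w ∈ (VS star S).erase u, w ∉ W
  · obtain ⟨u, hu, h2⟩ := h
    rw [sum_eq_single u, if_pos h2]
    · intro w hw hne
      rw [if_neg fun h3 => h3.2 u (mem_erase.2 ⟨hne.symm, h2.1⟩) hu]; simp
    · exact fun h => absurd hu h
  · rw [sum_eq_zero fun u hu => by rw [if_neg fun h2 => h ⟨u, hu, h2⟩]; simp]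
    positivity

lemma bessel_pt (h0 : 0 < p) (h1 : p < 1) {f : (ι → Bool) → ℝ} (hf : ∀ x, f x ^ 2 ≤ 1)
    (W : Finset V) (x) : ∑ u ∈ W, Av p (star u) (fun x => DD star p f u W x ^ 2) x ≤ 1 := by
  refine le_trans (le_of_eq ?_) ((bessel star h0 h1 (fun ω => f (mix (St star W) x ω)) W).trans
    (Ex_le h0.le h1.le fun ω => hf _))
  refine sum_congr rfl fun u hu => ?_
  have s1 : St star (W.erase u) ⊆ St star W := biUnion_subset_biUnion_of_subset_left _ (erase_subset _ _)
  have k : ∀ T' ⊆ St star W, ∀ ω, Av p T' (fun ω => f (mix (St star W) x ω)) ω =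
      Av p T' f (mix (St star W) x ω) := fun T' hT ω => by
    unfold Av; congr 1; funext ω'; refine congrArg f ?_; funext e
    by_cases a : e ∈ T'
    · simp [mix, a, hT a]
    · simp [mix, a]
  have hi : Inv (St star (W.erase u)) (fun x => DD star p f u W x ^ 2) := fun y ω => by
    simp only [DD, insert_eq_of_mem hu]
    rw [Av_inv, (Av_inv (St star W) f).mono s1]
  have hU : star u ∪ St star (W.erase u) = St star W := by
    rw [St, St, ← biUnion_insert, insert_erase hu]
  rw [← hi.av_eq (p := p), Av_Av, hU, Av]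
  congr 1; funext ω
  simp only [DD, insert_eq_of_mem hu]
  rw [k _ s1, k _ subset_rfl]

noncomputable def mm (L v : ℕ) : ℝ := (1 / L) * ∑ k ∈ range L, (1 - ((k + 1 : ℕ) : ℝ) / L) ^ (v - 1)

lemma pow_diff {a b : ℝ} (hb : 0 ≤ b) (hab : b ≤ a) (w : ℕ) :
    (w + 1) * (a - b) * b ^ w ≤ a ^ (w + 1) - b ^ (w + 1) ∧
      a ^ (w + 1) - b ^ (w + 1) ≤ (w + 1) * (a - b) * a ^ w := by
  induction w with
  | zero => simp
  | succ w ih =>
    have h1 : b ^ (w + 1) ≤ a ^ (w + 1) := pow_le_pow_left₀ hb hab _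
    have h2 := mul_le_mul_of_nonneg_left ih.1 hb
    have h3 := mul_le_mul_of_nonneg_left ih.2 (hb.trans hab)
    have h4 := mul_le_mul_of_nonneg_left h1 (sub_nonneg.2 hab)
    push_cast
    constructor
    · calc _ = b * ((w + 1) * (a - b) * b ^ w) + (a - b) * b ^ (w + 1) := by ring
        _ ≤ b * (a ^ (w + 1) - b ^ (w + 1)) + (a - b) * a ^ (w + 1) := by linarith
        _ = _ := by ring
    · calc _ = a * (a ^ (w + 1) - b ^ (w + 1)) + (a - b) * b ^ (w + 1) := by ring
        _ ≤ a * ((w + 1) * (a - b) * a ^ w) + (a - b) * a ^ (w + 1) := by linarith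
        _ = _ := by ring

lemma frac_le {L k : ℕ} (hk : k ∈ range L) : ((k + 1 : ℕ) : ℝ) / L ≤ 1 := by
  have := mem_range.1 hk
  rw [div_le_one (by exact_mod_cast (by omega : 0 < L))]; exact_mod_cast this

lemma mm_nonneg (L v : ℕ) : 0 ≤ mm L v :=
  mul_nonneg (by positivity) (sum_nonneg fun k hk => pow_nonneg (sub_nonneg.2 (frac_le hk)) _)

lemma mm_bounds {L : ℕ} (hL : 0 < L) {v : ℕ} (hv : 0 < v) :
    v * mm L v ≤ 1 ∧ 1 - (v : ℝ) / L ≤ v * mm L v := by
  obtain ⟨w, rfl⟩ : ∃ w, v = w + 1 := ⟨v - 1, by omega⟩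
  have hL' : (0 : ℝ) < L := by exact_mod_cast hL
  have tel := sum_range_sub' (fun k : ℕ => (1 - (k : ℝ) / L) ^ (w + 1)) L
  simp only [Nat.cast_zero, zero_div, sub_zero, one_pow, div_self hL'.ne', sub_self,
    zero_pow (Nat.succ_ne_zero w)] at tel
  have tel2 := sum_range_sub' (fun k : ℕ => (1 - (k : ℝ) / L) ^ w) L
  simp only [Nat.cast_zero, zero_div, sub_zero, one_pow, div_self hL'.ne', sub_self,
    sum_sub_distrib] at tel2
  have hd : ∀ k ∈ range L, _ := fun k hk => pow_diff (sub_nonneg.2 (frac_le hk))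
    (show 1 - ((k + 1 : ℕ) : ℝ) / L ≤ 1 - (k : ℝ) / L by gcongr; omega) w
  have e : ∀ k : ℕ, 1 - (k : ℝ) / L - (1 - ((k + 1 : ℕ) : ℝ) / L) = 1 / L := fun k => by
    push_cast; ring
  simp only [e] at hd
  have a1 := sum_le_sum fun k hk => (hd k hk).1
  have a2 := sum_le_sum fun k hk => (hd k hk).2
  rw [tel, ← mul_sum] at a1 a2
  have z : (0 : ℝ) ≤ 0 ^ w := by positivity
  rw [mm, Nat.add_sub_cancel, ← mul_assoc]
  push_cast at *
  refine ⟨a1, ?_⟩
  have c0 : 0 ≤ ((w : ℝ) + 1) * (1 / L) := by positivity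
  have : ((w : ℝ) + 1) / L = (w + 1) * (1 / L) := by ring
  nlinarith

noncomputable def gg (p : ℝ) (L : ℕ) (f : (ι → Bool) → ℝ) (u : V) (x : ι → Bool) : ℝ :=
  (1 / L) * ∑ k ∈ range L, Ex (((k + 1 : ℕ) : ℝ) / L) fun ξ => DD star p f u (US ξ) x

lemma gg_syn (h0 : 0 < p) (h1 : p < 1) (L : ℕ) (c : Finset ι → ℝ) (u : V) (x) :
    gg star p L (syn p c) u x =
      syn p (fun S => if u ∈ VS star S then mm L (VS star S).card * c S else 0) x := by
  have k : ∀ (b : ℝ) (S : Finset ι), Ex b (fun ξ : V → Bool =>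
      (if u ∈ VS star S ∧ ∀ w ∈ (VS star S).erase u, w ∉ US ξ then c S else 0)) =
      if u ∈ VS star S then (1 - b) ^ ((VS star S).card - 1) * c S else 0 := by
    intro b S
    by_cases a : u ∈ VS star S
    · have := Ex_prod (p := b) (fun (w : V) t => if w ∈ (VS star S).erase u then
        (if t then 0 else 1) else (1 : ℝ))
      rw [if_pos a, ← card_erase_of_mem a, ← prod_const, ← univ_inter ((VS star S).erase u),
        ← prod_ite_mem]
      rw [show (∏ w, if w ∈ (VS star S).erase u then 1 - b else 1) = _ from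
        (this.trans (prod_congr rfl fun w _ => by
          by_cases hw : w ∈ (VS star S).erase u <;> simp only [hw] <;> simp)).symm, ← Ex_mul']
      congr 1; funext ξ
      rw [prod_ite_mem, univ_inter]
      split_ifs with h
      · rw [prod_eq_one, one_mul]
        intro w hw
        have := h.2 w hw
        simp only [US, mem_filter, mem_univ, true_and] at this
        rw [if_neg this]
      · simp only [a, true_and, not_forall, not_not] at h
        obtain ⟨w, hw, h⟩ := h
        rw [prod_eq_zero hw, zero_mul]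
        rw [if_pos (mem_filter.1 h).2]
    · simp [a, Ex_const]
  simp only [gg, DD_syn star h0 h1, syn, Ex_sum, Ex_mul', k]
  rw [sum_comm, mul_sum]
  refine sum_congr rfl fun S _ => ?_
  split_ifs
  · rw [mm, ← sum_mul, ← sum_mul]; ring
  · simp

lemma gg_grad (h0 : 0 < p) (h1 : p < 1) {f : (ι → Bool) → ℝ} (hf : ∀ x, f x ^ 2 ≤ 1) {L : ℕ}
    (hL : 0 < L) (x) : ∑ u, Av p (star u) (fun x => gg star p L f u x ^ 2) x ≤
      ∑ k ∈ range L, 1 / ((k + 1 : ℕ) : ℝ) := by
  have hL' : (0 : ℝ) < L := by exact_mod_cast hL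
  have a1 : ∀ u y, gg star p L f u y ^ 2 ≤ ∑ k ∈ range L, (1 / L) *
      Ex (((k + 1 : ℕ) : ℝ) / L) fun ξ => DD star p f u (US ξ) y ^ 2 := fun u y => by
    rw [gg, mul_pow, ← mul_sum]
    refine (mul_le_mul_of_nonneg_left sq_sum_le_card_mul_sum_sq (by positivity)).trans ?_
    rw [card_range, ← mul_assoc, show (1 / (L : ℝ)) ^ 2 * L = 1 / L by field_simp]
    exact mul_le_mul_of_nonneg_left (sum_le_sum fun k hk =>
      Ex_sq (by positivity) (frac_le hk) _) (by positivity)
  have a2 : ∀ u, Av p (star u) (fun x => gg star p L f u x ^ 2) x ≤ ∑ k ∈ range L,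
      1 / ((k + 1 : ℕ) : ℝ) * Ex (((k + 1 : ℕ) : ℝ) / L) fun ξ => (if ξ u then 1 else 0) *
        Av p (star u) (fun y => DD star p f u (US ξ) y ^ 2) x := fun u => by
    refine (Av_mono h0.le h1.le _ (a1 u) x).trans (le_of_eq ?_)
    rw [Av, Ex_sum]
    refine sum_congr rfl fun k _ => ?_
    have hi : Inv {u} (fun ξ : V → Bool => Av p (star u) (fun y => DD star p f u (US ξ) y ^ 2) x) := by
      intro ξ ω
      have e1 : (US (mix {u} ξ ω)).erase u = (US ξ).erase u := by
        ext w; by_cases hw : w = u <;> simp [US, mix, hw]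
      have e2 : insert u (US (mix {u} ξ ω)) = insert u (US ξ) := by
        ext w; by_cases hw : w = u <;> simp [US, mix, hw]
      simp only [DD, e1, e2]
    simp only [mul_comm (if _ then (1 : ℝ) else 0)]
    rw [Ex_inv_mul hi]
    simp only [Av_single, Function.update_self, if_true, Bool.false_eq_true, if_false, mul_one,
      mul_zero, add_zero, Ex_mul', Ex_mul]
    rw [Ex_comm]
    have : ((k + 1 : ℕ) : ℝ) ≠ 0 := by positivity
    unfold Av
    field_simp
  refine (sum_le_sum fun u _ => a2 u).trans ?_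
  rw [sum_comm]
  refine sum_le_sum fun k hk => ?_
  rw [← mul_sum, ← Ex_sum]
  refine mul_le_of_le_one_right (by positivity) (Ex_le (by positivity) (frac_le hk) fun ξ => ?_)
  refine le_trans (le_of_eq ?_) (bessel_pt star h0 h1 hf (US ξ) x)
  rw [US, sum_filter]
  exact sum_congr rfl fun u _ => by split_ifs <;> simp

end Vale.Agent.P063
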