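import Vale.Agent.P063.Grad

namespace Vale.Agent.P063
open Finset

variable {ι : Type} [Fintype ι] [DecidableEq ι] {p : ℝ}

def vv (p : ℝ) (T : Finset ι) (f : (ι → Bool) → ℝ) (x : ι → Bool) : ℝ :=
  Av p T f x * (1 - Av p T f x)

lemma vv_inv (T : Finset ι) (f : (ι → Bool) → ℝ) : Inv T (vv p T f) := fun x ω => by
  simp only [vv, Av_inv T f x ω]

section bool
variable (h0 : 0 < p) (h1 : p < 1) {f : (ι → Bool) → ℝ} (hf : ∀ x, f x = 0 ∨ f x = 1)
include hf

omit [Fintype ι] [DecidableEq ι] in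
lemma f_sq (x) : f x ^ 2 = f x := by rcases hf x with h | h <;> simp [h]

include h0 h1

lemma Av_f (T : Finset ι) (x) : 0 ≤ Av p T f x ∧ Av p T f x ≤ 1 :=
  ⟨Ex_nonneg h0.le h1.le fun ω => by rcases hf (mix T x ω) with h | h <;> simp [h],
    Ex_le h0.le h1.le fun ω => by rcases hf (mix T x ω) with h | h <;> simp [h]⟩

lemma vv_bd (T : Finset ι) (x) : 0 ≤ vv p T f x ∧ vv p T f x ≤ 1 / 4 := by
  have := Av_f h0 h1 hf T x
  unfold vv
  exact ⟨mul_nonneg this.1 (by linarith), by nlinarith [sq_nonneg (Av p T f x - 1 / 2)]⟩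

lemma Ex_vv (T : Finset ι) :
    Ex p (vv p T f) = ∑ S, if Disjoint S T then 0 else hat p f S ^ 2 := by
  have e1 : Ex p (vv p T f) = Ex p (fun x => f x ^ 2) - Ex p (fun x => Av p T f x ^ 2) := by
    simp only [f_sq hf]
    rw [← Ex_Av T (fun x => f x), ← Ex_sub]; congr 1; funext x; rw [vv]; ring
  have e2 : ∀ x, Av p T f x = syn p (fun S => if Disjoint S T then hat p f S else 0) x := by
    intro x; rw [← Av_syn h0 h1, syn_hat h0 h1]
  rw [e1]
  simp only [e2]
  conv_lhs => enter [1]; rw [← syn_hat h0 h1 f]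
  rw [Ex_syn_sq h0 h1, Ex_syn_sq h0 h1, ← sum_sub_distrib]
  exact sum_congr rfl fun S _ => by split_ifs <;> simp

lemma cov_sq (T : Finset ι) (g : (ι → Bool) → ℝ) (x) (hg : Av p T g x = 0) :
    Av p T (fun x => f x * g x) x ^ 2 ≤ vv p T f x * Av p T (fun x => g x ^ 2) x := by
  have := Av_cs h0.le h1.le T (fun y => f y - Av p T f x) g x
  have e1 : Av p T (fun y => (f y - Av p T f x) * g y) x = Av p T (fun x => f x * g x) x := by
    unfold Av at hg
    simp only [sub_mul, Av, Ex_sub, Ex_mul, hg, mul_zero, sub_zero]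
  have e2 : Av p T (fun y => (f y - Av p T f x) ^ 2) x = vv p T f x := by
    have : ∀ y, (f y - Av p T f x) ^ 2 = (1 - 2 * Av p T f x) * f y + Av p T f x ^ 2 := fun y => by
      have := f_sq hf y
      linear_combination this
    simp only [this]
    rw [Av, Ex_add, Ex_mul, Ex_const, vv]
    change (1 - 2 * Av p T f x) * Av p T f x + _ = _
    ring
  rwa [e1, e2] at this

lemma cov_four' (T : Finset ι) (g : (ι → Bool) → ℝ) (x) :
    Av p T (fun x => f x * g x) x ^ 4 ≤ Av p T f x ^ 3 * Av p T (fun x => g x ^ 4) x := by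
  have a1 := Av_cs h0.le h1.le T f (fun x => f x * g x) x
  have a2 := Av_cs h0.le h1.le T f (fun x => g x ^ 2) x
  have e : ∀ y, f y * f y = f y := fun y => by rw [← sq, f_sq hf]
  simp only [mul_pow, f_sq hf, ← mul_assoc, e, ← pow_mul] at a1 a2
  have b := (Av_f h0 h1 hf T x).1
  calc _ = (Av p T (fun x => f x * g x) x ^ 2) ^ 2 := by ring
    _ ≤ (Av p T f x * Av p T (fun x => f x * g x ^ 2) x) ^ 2 := by gcongr
    _ = Av p T f x ^ 2 * Av p T (fun x => f x * g x ^ 2) x ^ 2 := by ring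
    _ ≤ Av p T f x ^ 2 * (Av p T f x * Av p T (fun x => g x ^ 4) x) := by gcongr
    _ = _ := by ring

lemma cov_four (T : Finset ι) (g : (ι → Bool) → ℝ) (x) (hg : Av p T g x = 0) :
    Av p T (fun x => f x * g x) x ^ 4 ≤ 8 * vv p T f x ^ 3 * Av p T (fun x => g x ^ 4) x := by
  have n4 : 0 ≤ Av p T (fun x => g x ^ 4) x := Av_nonneg h0.le h1.le T (fun x => by positivity) x
  have b := Av_f h0 h1 hf T x
  rw [show 8 * vv p T f x ^ 3 = (2 * vv p T f x) ^ 3 by ring]
  rcases le_total (Av p T f x) (1 / 2) with h | h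
  · refine (cov_four' h0 h1 hf T g x).trans (mul_le_mul_of_nonneg_right
      (pow_le_pow_left₀ b.1 ?_ 3) n4)
    unfold vv; nlinarith
  · have := cov_four' h0 h1 (f := fun x => 1 - f x)
      (fun x => by rcases hf x with h | h <;> simp [h]) T g x
    have e1 : Av p T (fun x => (1 - f x) * g x) x = -Av p T (fun x => f x * g x) x := by
      unfold Av at hg
      simp only [sub_mul, Av, Ex_sub, one_mul, hg, zero_sub]
    have e2 : Av p T (fun x => 1 - f x) x = 1 - Av p T f x := by
      simp only [Av, Ex_sub, Ex_const]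
    rw [e1, e2, show ∀ a : ℝ, (-a) ^ 4 = a ^ 4 from fun a => by ring] at this
    refine this.trans (mul_le_mul_of_nonneg_right (pow_le_pow_left₀ (by linarith) ?_ 3) n4)
    unfold vv; nlinarith

lemma Ex_flip (T : Finset ι) :
    Ex p (fun x => Ex p fun ω => (f x - f (mix T x ω)) ^ 2) = 2 * Ex p (vv p T f) := by
  have e : ∀ x, Ex p (fun ω => (f x - f (mix T x ω)) ^ 2) =
      (1 - 2 * Av p T f x) * f x + Av p T f x := fun x => by
    have : ∀ ω, (f x - f (mix T x ω)) ^ 2 = f x + (1 - 2 * f x) * f (mix T x ω) := fun ω => by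
      linear_combination f_sq hf x + f_sq hf (mix T x ω)
    simp only [this]
    rw [Ex_add, Ex_mul, Ex_const]
    change _ + _ * Av p T f x = _
    ring
  simp only [e]
  rw [Ex_add, Ex_inv_mul (T := T) fun x ω => by rw [Av_inv], ← Ex_add, ← Ex_mul]
  congr 1; funext x; rw [vv]; ring

end bool

lemma pair_a {T : Finset ι} (T' : Finset ι) {Ψ : (ι → Bool) → (ι → Bool) → ℝ}
    (h : ∀ x ω y ω', Ψ (mix T x ω) (mix T y ω') = Ψ x y) (F : (ι → Bool) → ℝ) :
    Ex p (fun x => Ex p fun ω => Ψ x (mix T' x ω) * F x) =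
      Ex p (fun x => Ex p fun ω => Ψ x (mix T' x ω) * Av p T F x) := by
  simp only [Ex_mul']
  refine Ex_inv_mul (fun x ω => ?_) F
  congr 1; funext ω'
  rw [← h x ω (mix T' x ω') (mix T' ω ω')]
  congr 1; funext e; by_cases h : e ∈ T <;> by_cases h' : e ∈ T' <;> simp [mix, h, h']

lemma pair_swap (T : Finset ι) (Θ : (ι → Bool) → (ι → Bool) → ℝ) :
    Ex p (fun x => Ex p fun ω => Θ x (mix T x ω)) =
      Ex p (fun x => Ex p fun ω => Θ (mix T x ω) x) := by
  rw [← Ex_swap T (fun x ω => Θ x (mix T x ω))]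
  congr 1; funext x; congr 1; funext ω; congr 1; funext e
  by_cases h : e ∈ T <;> simp [mix, h]

lemma pair_b {T : Finset ι} (T' : Finset ι) {Ψ : (ι → Bool) → (ι → Bool) → ℝ}
    (h : ∀ x ω y ω', Ψ (mix T x ω) (mix T y ω') = Ψ x y) (F : (ι → Bool) → ℝ) :
    Ex p (fun x => Ex p fun ω => Ψ x (mix T' x ω) * F (mix T' x ω)) =
      Ex p (fun x => Ex p fun ω => Ψ x (mix T' x ω) * Av p T F (mix T' x ω)) := by
  rw [pair_swap T' (fun x y => Ψ x y * F y), pair_swap T' (fun x y => Ψ x y * Av p T F y)]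
  exact pair_a T' (Ψ := fun x y => Ψ y x) (fun x ω y ω' => h y ω' x ω) F

lemma sym_av {f : (ι → Bool) → ℝ} {T T' : Finset ι} (σ : Equiv.Perm ι) (h1 : ∀ x, f (x ∘ σ) = f x)
    (h2 : ∀ e, σ e ∈ T' ↔ e ∈ T) (h3 : ∀ e, σ e ∈ T ↔ e ∈ T') (h4 : ∀ e, e ∉ T → e ∉ T' → σ e = e)
    (Φ : ℝ → ℝ) (x) :
    Av p T' (fun x => Φ (Av p T f x)) x = Av p T (fun x => Φ (Av p T' f x)) x := by
  have a : ∀ y, Av p T' f y = Av p T f (y ∘ σ) := fun y => by
    rw [Av, Av, ← Ex_perm σ (fun ω => f (mix T (y ∘ σ) ω))]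
    congr 1; funext ω; rw [← h1]; congr 1; funext e; simp [mix, h2]
  simp only [a]
  rw [Av, Av, ← Ex_perm σ]
  congr 1; funext ω; congr 1
  refine (Av_inv T f).congr fun e he => ?_
  by_cases h : e ∈ T'
  · simp [mix, h, h3]
  · simp [mix, h, he, h4 e he h]

variable {V : Type} [Fintype V] (star : V → Finset ι) (p) (f : (ι → Bool) → ℝ) (τ M : ℝ)

noncomputable def sp (u : V) (x : ι → Bool) : ℝ := if τ / 4 ≤ vv p (star u) f x then 1 else 0
noncomputable def NN (x : ι → Bool) : ℝ := ∑ u, sp p star f τ u x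
noncomputable def Bd (x : ι → Bool) : ℝ := if M < NN p star f τ x then 1 else 0
noncomputable def th (u : V) : (ι → Bool) → ℝ := Av p (star u) (Bd p star f τ M)
noncomputable def al (u : V) (x : ι → Bool) : ℝ :=
  if τ ≤ vv p (star u) f x ∧ th p star f τ M u x < τ / 8 then 1 else 0

variable {p f τ M} (h0 : 0 < p) (h1 : p < 1) (hf : ∀ x, f x = 0 ∨ f x = 1)
include h0 h1 hf

lemma Y_lower (u u' : V) :
    5 / 8 * Ex p (fun x => al p star f τ M u x * vv p (star u) f x *
      (1 - Av p (star u') (sp p star f τ u) x)) ≤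
    Ex p fun x => Ex p fun ω => al p star f τ M u x * (1 - Bd p star f τ M x) *
      (f x - f (mix (star u') x ω)) ^ 2 := by
  obtain ⟨W, hW⟩ : ∃ W : (ι → Bool) → (ι → Bool) → ℝ,
    W = fun x y => al p star f τ M u x * (1 - sp p star f τ u y) := ⟨_, rfl⟩
  obtain ⟨Ψ, hΨ⟩ : ∃ Ψ : (ι → Bool) → (ι → Bool) → ℝ,
    Ψ = fun x y => W x y * if Av p (star u) f y ≤ Av p (star u) f x then 1 else -1 := ⟨_, rfl⟩
  have iW : ∀ x ω y ω', W (mix (star u) x ω) (mix (star u) y ω') = W x y := fun x ω y ω' => by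
    have e : th p star f τ M u (mix (star u) x ω) = th p star f τ M u x := Av_inv _ _ x ω
    simp only [hW, al, sp, e, vv_inv (star u) f x ω, vv_inv (star u) f y ω']
  have iΨ : ∀ x ω y ω', Ψ (mix (star u) x ω) (mix (star u) y ω') = Ψ x y := fun x ω y ω' => by
    simp only [hΨ, iW, Av_inv _ _ x ω, Av_inv _ _ y ω']
  calc _ = Ex p fun x => Ex p fun ω => W x (mix (star u') x ω) * (5 / 8 * vv p (star u) f x) := by
        rw [← Ex_mul]; congr 1; funext x
        simp only [hW]
        rw [Ex_mul', Ex_mul, Ex_sub, Ex_const, Av]; ring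
    _ ≤ Ex p fun x => Ex p fun ω => Ψ x (mix (star u') x ω) * Av p (star u) f x -
          Ψ x (mix (star u') x ω) * Av p (star u) f (mix (star u') x ω) -
          W x (mix (star u') x ω) * th p star f τ M u x := by
        refine Ex_mono h0.le h1.le fun x => Ex_mono h0.le h1.le fun ω => ?_
        generalize mix (star u') x ω = y
        have bx := Av_f h0 h1 hf (star u) x
        have by' := Av_f h0 h1 hf (star u) y
        have vx := (vv_bd h0 h1 hf (star u) x).1
        simp only [hΨ, hW, al, sp]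
        by_cases c1 : τ ≤ vv p (star u) f x ∧ th p star f τ M u x < τ / 8
        · by_cases c2 : τ / 4 ≤ vv p (star u) f y
          · simp [c2]
          · simp only [c1, c2, and_self, if_true, if_false, sub_zero, one_mul]
            have c3 := c1.1
            have c4 := c1.2
            unfold vv at c2 c3 vx ⊢
            split_ifs with c5 <;> nlinarith
        · simp [c1]
    _ = Ex p fun x => Ex p fun ω => Ψ x (mix (star u') x ω) * f x -
          Ψ x (mix (star u') x ω) * f (mix (star u') x ω) -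
          W x (mix (star u') x ω) * Bd p star f τ M x := by
        simp only [Ex_sub]
        rw [pair_a (star u') iΨ f, pair_b (star u') iΨ f, pair_a (star u') iW (Bd p star f τ M)]
        rfl
    _ ≤ _ := by
        refine Ex_mono h0.le h1.le fun x => Ex_mono h0.le h1.le fun ω => ?_
        generalize mix (star u') x ω = y
        simp only [hΨ, hW, al, sp, Bd]
        rcases hf x with a | a <;> rcases hf y with b | b <;> rw [a, b] <;> split_ifs <;> norm_num

lemma X_bound (hτ : 0 < τ) (hM : 0 ≤ M) (hn : M + Fintype.card V * τ / 8 ≤ Fintype.card V / 2)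
    (hs : ∀ u u' (Φ : ℝ → ℝ) x, Av p (star u') (fun x => Φ (Av p (star u) f x)) x =
      Av p (star u) (fun x => Φ (Av p (star u') f x)) x) :
    5 / 16 * Fintype.card V * ∑ u, Ex p (fun x => al p star f τ M u x * vv p (star u) f x) ≤
      2 * M * ∑ u, Ex p (vv p (star u) f) := by
  have a := sum_le_sum fun u (_ : u ∈ univ) => sum_le_sum fun u' (_ : u' ∈ univ) =>
    Y_lower star (τ := τ) (M := M) h0 h1 hf u u'
  have spb : ∀ u x, sp p star f τ u x ≤ 1 := fun u x => by unfold sp; split_ifs <;> norm_num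
  refine le_trans ?_ (a.trans ?_)
  · rw [mul_sum]
    refine sum_le_sum fun u _ => ?_
    rw [← mul_sum, ← Ex_sum, ← Ex_mul, ← Ex_mul]
    refine Ex_mono h0.le h1.le fun x => ?_
    rw [← mul_sum, sum_sub_distrib, sum_const, card_univ, nsmul_eq_mul, mul_one]
    have e : ∑ u', Av p (star u') (sp p star f τ u) x = Av p (star u) (NN p star f τ) x := by
      have : ∀ u', Av p (star u') (sp p star f τ u) x = Av p (star u) (sp p star f τ u') x :=
        fun u' => hs u u' (fun h => if τ / 4 ≤ h * (1 - h) then 1 else 0) x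
      simp only [this]
      exact (Ex_sum _ _).symm
    have b : Av p (star u) (NN p star f τ) x ≤ M + Fintype.card V * th p star f τ M u x := by
      rw [th, Av, Av, ← Ex_mul, ← Ex_const (p := p) (ι := ι) M, ← Ex_add]
      refine Ex_mono h0.le h1.le fun ω => ?_
      rw [Ex_const, Bd]
      split_ifs with h
      · have : NN p star f τ (mix (star u) x ω) ≤ Fintype.card V := by
          simpa [NN] using sum_le_sum fun w (_ : w ∈ univ) => spb w (mix (star u) x ω)
        linarith
      · linarith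
    rw [e, al]
    split_ifs with h
    · have vx := (vv_bd h0 h1 hf (star u) x).1
      have : (Fintype.card V : ℝ) * th p star f τ M u x ≤ Fintype.card V * τ / 8 := by
        rw [mul_div_assoc]; exact mul_le_mul_of_nonneg_left h.2.le (Nat.cast_nonneg _)
      nlinarith
    · simp
  · rw [sum_comm, mul_sum]
    refine sum_le_sum fun u' _ => ?_
    rw [mul_comm 2 M, mul_assoc, ← Ex_flip h0 h1 hf, ← Ex_sum, ← Ex_mul]
    refine Ex_mono h0.le h1.le fun x => ?_
    rw [← Ex_sum, ← Ex_mul]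
    refine Ex_mono h0.le h1.le fun ω => ?_
    rw [← sum_mul, ← sum_mul]
    refine mul_le_mul_of_nonneg_right ?_ (sq_nonneg _)
    have : ∑ u, al p star f τ M u x ≤ NN p star f τ x := sum_le_sum fun u _ => by
      unfold al sp
      split_ifs with c1 c2
      · rfl
      · exact absurd (by linarith [c1.1]) c2
      · norm_num
      · rfl
    rw [Bd]
    split_ifs with h
    · simpa using hM
    · linarith

lemma Bd_bound (hτ : 0 < τ) (hM : 0 < M) :
    Ex p (Bd p star f τ M) ≤ 4 / (τ * M) * ∑ u, Ex p (vv p (star u) f) := by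
  rw [← Ex_sum, ← Ex_mul]
  refine Ex_mono h0.le h1.le fun x => ?_
  have a : NN p star f τ x ≤ 4 / τ * ∑ u, vv p (star u) f x := by
    rw [mul_sum]
    refine sum_le_sum fun u _ => ?_
    have := (vv_bd h0 h1 hf (star u) x).1
    unfold sp
    split_ifs with h
    · rw [div_mul_eq_mul_div, le_div_iff₀ hτ]; linarith
    · positivity
  have b : 0 ≤ ∑ u, vv p (star u) f x := sum_nonneg fun u _ => (vv_bd h0 h1 hf (star u) x).1
  rw [Bd]
  split_ifs with h
  · rw [show 4 / (τ * M) * ∑ u, vv p (star u) f x = (4 / τ * ∑ u, vv p (star u) f x) / M by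
      field_simp, le_div_iff₀ hM]
    linarith
  · positivity

end Vale.Agent.P063
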